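import Vale.Agent.P207.N3.H732.LeafA

/-!
# P207, line N3, P2: foot points, and comparison of cocycles along geodesics which meet

`Foot L Y`: the foot point map from frames to the Hadamard manifold `Y`.
`Foot.dist_bdd` (DIST): two geodesics which start in a compact set and meet have the same cocycle up
to a constant. `Foot.end_close` (END): their end points are close.
-/

open Set Filter Topology Metric MeasureTheory

noncomputable section

namespace Vale.Agent.P207.N3.H348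

open H732

variable {Γ X B : Type} [Group Γ] [MetricSpace X] [ProperSpace X] [MulAction Γ X]
  [IsIsometricSMul Γ X] [TopologicalSpace B] [CompactSpace B] [T2Space B] [MulAction Γ B]
  [ContinuousConstSMul Γ B]

/-- The foot points of the frames, in a Hadamard manifold `Y`. -/
structure Foot (L : Leaf Γ X B) (Y : Type) [MetricSpace Y] [ProperSpace Y] [MulAction Γ Y]
    [IsIsometricSMul Γ Y] where
  ft : X → Y
  cont : Continuous ft
  smul : ∀ (g : Γ) x, ft (g • x) = g • ft x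
  rot : ∀ a x, ft (L.rot a x) = ft x
  flip : ∀ x, ft (L.flip x) = ft x
  proper : ∀ K : Set Y, IsCompact K → IsCompact (ft ⁻¹' K)
  unit : ∀ x s, dist (ft x) (ft (L.φ s x)) = |s|
  /-- comparison of geodesics which meet -/
  conv : ∀ x y s s', 0 ≤ s → 0 ≤ s' → ft (L.φ s x) = ft (L.φ s' y) → ∀ σ, 0 ≤ σ → σ ≤ s → σ ≤ s' →
    dist (ft (L.φ σ x)) (ft (L.φ σ y)) ≤ 5 * dist (ft x) (ft y)
  asym : ∀ x y C, (∀ σ, 0 ≤ σ → dist (ft (L.φ σ x)) (ft (L.φ σ y)) ≤ C) → L.ep x = L.ep y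
  frame : ∀ q ξ, ∃ x, ft x = q ∧ L.em x = ξ
  uniq : ∀ x y, ft x = ft y → L.ep x = L.ep y → L.em x = L.em y

/-- the cocycle of a function on the frames -/
def aa (L : Leaf Γ X B) (W : X → ℝ) (x : X) (s : ℝ) : ℝ := ∫ t in (0 : ℝ)..s, W (L.φ t x)

section Cocycle

variable (L : Leaf Γ X B) {W : X → ℝ}

theorem φ_cont_y (x : X) : Continuous fun t => L.φ t x :=
  L.φ_cont.comp (continuous_id.prodMk continuous_const)

theorem φ_cont_t (t : ℝ) : Continuous (L.φ t) :=
  L.φ_cont.comp (continuous_const.prodMk continuous_id)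

theorem W_int (hW : Continuous W) (x : X) (a b : ℝ) :
    IntervalIntegrable (fun t => W (L.φ t x)) volume a b :=
  (hW.comp (φ_cont_y L x)).intervalIntegrable _ _

theorem aa_add (hW : Continuous W) (x : X) (s t : ℝ) :
    aa L W x (s + t) = aa L W x s + aa L W (L.φ s x) t := by
  unfold aa
  have h1 : ∫ r in (0 : ℝ)..t, W (L.φ r (L.φ s x)) = ∫ r in s..(s + t), W (L.φ r x) := by
    have h2 := intervalIntegral.integral_comp_add_right (a := 0) (b := t)
      (fun r => W (L.φ r x)) s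
    simp only [zero_add] at h2
    rw [add_comm t s] at h2
    rw [← h2]
    simp only [L.φ_add]
  rw [h1, intervalIntegral.integral_add_adjacent_intervals (W_int L hW x 0 s)
    (W_int L hW x s (s + t))]

theorem aa_zero (W : X → ℝ) (x : X) : aa L W x 0 = 0 := intervalIntegral.integral_same

theorem aa_neg (hW : Continuous W) (x : X) (s : ℝ) :
    aa L W (L.φ s x) (-s) = -aa L W x s := by
  have h := aa_add L hW x s (-s)
  rw [add_neg_cancel, aa_zero] at h
  linarith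

theorem aa_rot (hr : ∀ a x, W (L.rot a x) = W x) (a : O2) (x : X) (s : ℝ) :
    aa L W (L.rot a x) s = aa L W x s := by
  unfold aa
  congr 1
  funext t
  rw [← L.rot_φ, hr]

theorem aa_smul (hg : ∀ (g : Γ) x, W (g • x) = W x) (g : Γ) (x : X) (s : ℝ) :
    aa L W (g • x) s = aa L W x s := by
  unfold aa
  congr 1
  funext t
  rw [L.φ_smul, hg]

include L in
/-- A continuous `Γ`-invariant function is bounded. -/
theorem exists_bound (hW : Continuous W) (hg : ∀ (g : Γ) x, W (g • x) = W x) :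
    ∃ C, 0 ≤ C ∧ ∀ x, |W x| ≤ C := by
  obtain ⟨K, hK, hcov⟩ := L.cocompact
  obtain ⟨C, hC⟩ := hK.exists_bound_of_continuousOn hW.continuousOn
  refine ⟨|C|, abs_nonneg C, fun x => ?_⟩
  obtain ⟨g, hx⟩ := hcov x
  have := hC _ hx
  rw [hg, Real.norm_eq_abs] at this
  exact this.trans (le_abs_self C)

theorem aa_le {C : ℝ} (hC : ∀ x, |W x| ≤ C) (x : X) (s : ℝ) : |aa L W x s| ≤ C * |s| := by
  have h := intervalIntegral.norm_integral_le_of_norm_le_const (a := 0) (b := s) (C := C)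
    (f := fun t => W (L.φ t x)) fun t _ => hC _
  rwa [sub_zero, Real.norm_eq_abs] at h

theorem aa_cont (hW : Continuous W) : Continuous fun p : X × ℝ => aa L W p.1 p.2 := by
  unfold aa
  have h : Continuous (Function.uncurry fun (p : X × ℝ) (t : ℝ) => W (L.φ t p.1)) :=
    hW.comp (L.φ_cont.comp (continuous_snd.prodMk (continuous_fst.comp continuous_fst)))
  exact intervalIntegral.continuous_parametric_intervalIntegral_of_continuous h continuous_snd

/-- orbits which are asymptotic in the future have the same cocycle up to a constant -/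
theorem aa_asym (hW : Continuous W) (hH : Hold W) {D κ : ℝ} (hκ : 0 < κ) :
    ∃ M, ∀ x y, (∀ t, 0 ≤ t → dist (L.φ t x) (L.φ t y) ≤ D * Real.exp (-κ * t)) →
      ∀ s, 0 ≤ s → |aa L W x s - aa L W y s| ≤ M := by
  obtain ⟨C, α, hα, hC⟩ := hH
  set A : ℝ := |C| * |D| ^ α with hA
  have hA0 : 0 ≤ A := mul_nonneg (abs_nonneg _) (Real.rpow_nonneg (abs_nonneg _) _)
  set β : ℝ := κ * α with hβ
  have hβ0 : 0 < β := mul_pos hκ hα
  refine ⟨A / β, fun x y h s hs => ?_⟩
  have h1 : ∀ t, 0 ≤ t → |W (L.φ t x) - W (L.φ t y)| ≤ A * Real.exp (-β * t) := by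
    intro t ht
    have h2 : dist (L.φ t x) (L.φ t y) ≤ |D| * Real.exp (-κ * t) :=
      (h t ht).trans (mul_le_mul_of_nonneg_right (le_abs_self D) (Real.exp_pos _).le)
    calc |W (L.φ t x) - W (L.φ t y)| ≤ C * dist (L.φ t x) (L.φ t y) ^ α := hC _ _
      _ ≤ |C| * dist (L.φ t x) (L.φ t y) ^ α :=
          mul_le_mul_of_nonneg_right (le_abs_self C) (Real.rpow_nonneg dist_nonneg _)
      _ ≤ |C| * (|D| * Real.exp (-κ * t)) ^ α := by gcongr
      _ = A * Real.exp (-β * t) := by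
          rw [Real.mul_rpow (abs_nonneg D) (Real.exp_pos _).le, ← Real.exp_mul, hA, ← mul_assoc]
          congr 2
          rw [hβ]; ring
  unfold aa
  rw [← intervalIntegral.integral_sub (W_int L hW x 0 s) (W_int L hW y 0 s)]
  have h3 : ‖∫ t in (0 : ℝ)..s, (W (L.φ t x) - W (L.φ t y))‖ ≤
      ∫ t in (0 : ℝ)..s, A * Real.exp (-β * t) := by
    refine intervalIntegral.norm_integral_le_of_norm_le hs ?_ ?_
    · exact Eventually.of_forall fun t ht => h1 t ht.1.le
    · exact (by fun_prop : Continuous fun t : ℝ => A * Real.exp (-β * t)).intervalIntegrable _ _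
  rw [Real.norm_eq_abs] at h3
  refine h3.trans ?_
  rw [intervalIntegral.integral_const_mul]
  have h4 : ∫ t in (0 : ℝ)..s, Real.exp (-β * t) = (1 - Real.exp (-β * s)) / β := by
    have h6 : ∀ t ∈ uIcc 0 s, HasDerivAt (fun t : ℝ => -(Real.exp (-β * t)) / β)
        (Real.exp (-β * t)) t := by
      intro t _
      have h7 : HasDerivAt (fun t : ℝ => -β * t) (-β) t := by
        simpa using (hasDerivAt_id t).const_mul (-β)
      refine ((h7.exp.neg).div_const β).congr_deriv ?_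
      field_simp
    rw [intervalIntegral.integral_eq_sub_of_hasDerivAt h6
      ((by fun_prop : Continuous fun t : ℝ => Real.exp (-β * t)).intervalIntegrable _ _)]
    simp only [mul_zero, Real.exp_zero]
    ring
  rw [h4, mul_div_assoc', div_le_div_iff_of_pos_right hβ0]
  have h8 := Real.exp_pos (-β * s)
  nlinarith

/-- the cocycle in the past -/
theorem aa_flip (W : X → ℝ) (x : X) (s : ℝ) :
    aa L W x (-s) = -aa L (fun y => W (L.flip y)) (L.flip x) s := by
  unfold aa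
  rw [intervalIntegral.integral_symm]
  have h2 := intervalIntegral.integral_comp_neg (a := 0) (b := s) (fun t => W (L.φ t x))
  rw [neg_zero] at h2
  rw [← h2]
  congr 1
  refine intervalIntegral.integral_congr fun t _ => ?_
  simp only [L.flip_φ, L.flip_flip]

end Cocycle

section Bounds

variable (L : Leaf Γ X B)

/-- the flow moves the frames by bounded distances -/
theorem move (T : ℝ) : ∃ C, 0 ≤ C ∧ ∀ x s, |s| ≤ T → dist (L.φ s x) x ≤ C := by
  obtain ⟨K, hK, hcov⟩ := L.cocompact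
  have h1 : IsCompact (Icc (-T) T ×ˢ K) := isCompact_Icc.prod hK
  have h2 : Continuous fun p : ℝ × X => dist (L.φ p.1 p.2) p.2 :=
    L.φ_cont.dist continuous_snd
  obtain ⟨C, hC⟩ := h1.exists_bound_of_continuousOn h2.continuousOn
  refine ⟨|C|, abs_nonneg C, fun x s hs => ?_⟩
  obtain ⟨g, hx⟩ := hcov x
  have h3 := hC (s, g • x) ⟨abs_le.1 hs, hx⟩
  rw [Real.norm_eq_abs, abs_of_nonneg dist_nonneg] at h3
  simp only at h3
  rw [L.φ_smul, dist_smul] at h3
  exact h3.trans (le_abs_self C)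

/-- the levels of frames of one leaf at bounded distance -/
theorem lv_bdd (D : ℝ) : ∃ C, 0 ≤ C ∧ ∀ x y, L.em x = L.em y → dist x y ≤ D →
    |L.lv x - L.lv y| ≤ C := by
  obtain ⟨K, hK, hcov⟩ := L.cocompact
  have hK1 : IsCompact (cthickening D K) := hK.cthickening
  obtain ⟨C, hC⟩ := (hK.union hK1).exists_bound_of_continuousOn L.lv_cont.continuousOn
  refine ⟨|C| + |C|, by positivity, fun x y hem hxy => ?_⟩
  obtain ⟨g, hx⟩ := hcov x
  have hy : g • y ∈ cthickening D K :=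
    mem_cthickening_of_dist_le _ _ _ K hx (by rw [dist_smul, dist_comm]; exact hxy)
  have h1 := hC _ (Or.inl hx)
  have h2 := hC _ (Or.inr hy)
  rw [Real.norm_eq_abs] at h1 h2
  rw [← L.lv_smul g x y hem]
  exact (abs_sub _ _).trans (add_le_add (h1.trans (le_abs_self C)) (h2.trans (le_abs_self C)))

/-- frames of one leaf at bounded distance are asymptotic in the past -/
theorem unst (D : ℝ) : ∃ C, 0 ≤ C ∧ ∀ x y, L.em x = L.em y → dist x y ≤ D →
    ∃ (a : O2) (r : ℝ), |r| ≤ C ∧ ∀ t, 0 ≤ t →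
      dist (L.φ t (L.flip x)) (L.φ t (L.flip (L.φ r (L.rot a y)))) ≤ C * Real.exp (-L.χ * t) := by
  obtain ⟨K, hK, hcov⟩ := L.cocompact
  have hK1 : IsCompact (cthickening D K) := hK.cthickening
  set Z : Set (X × X) := (K ×ˢ cthickening D K) ∩ {p | L.em p.1 = L.em p.2} with hZ
  have hZc : IsCompact Z := (hK.prod hK1).inter_right
    (isClosed_eq (L.em_cont.comp continuous_fst) (L.em_cont.comp continuous_snd))
  have hq : Continuous fun p : X × X => (L.em (L.flip p.2), L.flip p.1) :=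
    (L.em_cont.comp (L.flip_cont.comp continuous_snd)).prodMk (L.flip_cont.comp continuous_fst)
  obtain ⟨C, hC⟩ := L.hol_asym _ (hZc.image hq) (by
    rintro _ ⟨p, hp, rfl⟩
    simp only
    rw [ep_flip', ← L.ep_flip, show L.em p.1 = L.em p.2 from hp.2]
    exact (L.em_ne_ep p.2).symm)
  obtain ⟨C', hC'0, hC'⟩ := lv_bdd L D
  refine ⟨max |C| C', le_max_of_le_right hC'0, fun x y hem hxy => ?_⟩
  obtain ⟨g, hx⟩ := hcov x
  have hy : g • y ∈ cthickening D K :=
    mem_cthickening_of_dist_le _ _ _ K hx (by rw [dist_smul, dist_comm]; exact hxy)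
  have hne : L.ep y ≠ L.em x := by rw [hem]; exact (L.em_ne_ep y).symm
  have hem' : L.em (g • x) = L.em (g • y) := by rw [L.em_smul, L.em_smul, hem]
  set r : ℝ := L.lv x - L.lv y with hr
  -- the frame over the geodesic of `y`
  obtain ⟨a, ha⟩ := L.frame_unique (L.φ r y) (hu L (L.ep y) x)
    (by rw [L.em_φ, hu_em L hne, hem]) (by rw [ep_φ, hu_ep L hne])
    (by rw [L.lv_φ, hu_lv L hne, hr]; ring)
  refine ⟨a, r, (hC' x y hem hxy).trans (le_max_right _ _), fun t ht => ?_⟩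
  have h1 := hC _ ⟨(g • x, g • y), ⟨⟨hx, hy⟩, hem'⟩, rfl⟩ t ht
  simp only at h1
  have hne' : L.em (L.flip y) ≠ L.ep (L.flip x) := by
    rw [ep_flip', ← L.ep_flip]; exact hne
  rw [L.flip_smul, L.flip_smul, L.em_smul, L.hol_smul _ _ _ hne', L.φ_smul, L.φ_smul, dist_smul] at h1
  have e1 : L.flip (L.φ r (L.rot a y)) = L.hol (L.em (L.flip y)) (L.flip x) := by
    rw [← L.rot_φ, ← ha, hu, L.flip_flip, L.ep_flip]
  rw [e1]
  exact h1.trans (mul_le_mul_of_nonneg_right ((le_abs_self C).trans (le_max_left _ _))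
    (Real.exp_pos _).le)

end Bounds

namespace Foot

variable {L : Leaf Γ X B} {Y : Type} [MetricSpace Y] [ProperSpace Y] [MulAction Γ Y]
  [IsIsometricSMul Γ Y] (F : Foot L Y)

include F

/-- frames with foot points at bounded distance are at bounded distance -/
theorem near_of_foot (D : ℝ) : ∃ C, 0 ≤ C ∧ ∀ x y, dist (F.ft x) (F.ft y) ≤ D → dist x y ≤ C := by
  obtain ⟨K, hK, hcov⟩ := L.cocompact
  have h1 : IsCompact (F.ft ⁻¹' (cthickening D (F.ft '' K))) :=
    F.proper _ (hK.image F.cont).cthickening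
  obtain ⟨C, hC⟩ := Metric.isBounded_iff.1 (hK.union h1).isBounded
  refine ⟨|C|, abs_nonneg C, fun x y h => ?_⟩
  obtain ⟨g, hx⟩ := hcov x
  have h3 : F.ft (g • y) ∈ cthickening D (F.ft '' K) :=
    mem_cthickening_of_dist_le _ (F.ft (g • x)) D _ ⟨_, hx, rfl⟩
      (by rw [F.smul, F.smul, dist_smul, dist_comm]; exact h)
  have h2 := hC (x := g • x) (Or.inl hx) (y := g • y) (Or.inr h3)
  rw [dist_smul] at h2
  exact h2.trans (le_abs_self C)

/-- foot points of frames at bounded distance -/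
theorem foot_of_near (D : ℝ) : ∃ C, 0 ≤ C ∧ ∀ x y, dist x y ≤ D → dist (F.ft x) (F.ft y) ≤ C := by
  obtain ⟨K, hK, hcov⟩ := L.cocompact
  have h1 : IsCompact (F.ft '' (K ∪ cthickening D K)) := (hK.union hK.cthickening).image F.cont
  obtain ⟨C, hC⟩ := Metric.isBounded_iff.1 h1.isBounded
  refine ⟨|C|, abs_nonneg C, fun x y h => ?_⟩
  obtain ⟨g, hx⟩ := hcov x
  have h2 := hC (x := F.ft (g • x)) ⟨_, Or.inl hx, rfl⟩ (y := F.ft (g • y)) ⟨_, Or.inr
    (mem_cthickening_of_dist_le _ (g • x) D _ hx (by rw [dist_smul, dist_comm]; exact h)), rfl⟩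
  rw [F.smul, F.smul, dist_smul] at h2
  exact h2.trans (le_abs_self C)

/-- times of meeting -/
theorem abs_sub_le {x y : X} {s s' : ℝ} (hs : 0 ≤ s) (hs' : 0 ≤ s')
    (h : F.ft (L.φ s x) = F.ft (L.φ s' y)) : |s - s'| ≤ dist (F.ft x) (F.ft y) := by
  have h1 := F.unit x s
  have h2 := F.unit y s'
  rw [abs_of_nonneg hs] at h1
  rw [abs_of_nonneg hs'] at h2
  rw [h] at h1
  have h3 := dist_triangle (F.ft x) (F.ft y) (F.ft (L.φ s' y))
  have h4 := dist_triangle (F.ft y) (F.ft x) (F.ft (L.φ s' y))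
  rw [dist_comm (F.ft y) (F.ft x)] at h4
  rw [abs_sub_le_iff]
  constructor <;> linarith

/-- pairs of frames of `K` whose geodesics meet after a time `≥ S` -/
def Z (K : Set X) (S : ℝ) : Set (X × X) :=
  {p | p.1 ∈ K ∧ p.2 ∈ K ∧ ∃ s s', S ≤ s ∧ 0 ≤ s ∧ 0 ≤ s' ∧ F.ft (L.φ s p.1) = F.ft (L.φ s' p.2)}

theorem end_limit {K : Set X} (hK : IsCompact K) {p : ℕ → X × X} (hp : ∀ n : ℕ, p n ∈ F.Z K n)
    {q : X × X} (hq : Tendsto p atTop (𝓝 q)) : L.ep q.1 = L.ep q.2 := by
  obtain ⟨D, hD⟩ := Metric.isBounded_iff.1 (hK.image F.cont).isBounded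
  refine F.asym q.1 q.2 (5 * D) fun σ hσ => ?_
  have hc : Continuous fun r : X × X => dist (F.ft (L.φ σ r.1)) (F.ft (L.φ σ r.2)) :=
    (F.cont.comp ((φ_cont_t L σ).comp continuous_fst)).dist
      (F.cont.comp ((φ_cont_t L σ).comp continuous_snd))
  refine le_of_tendsto ((hc.tendsto q).comp hq) ?_
  filter_upwards [eventually_ge_atTop ⌈σ + D⌉₊] with n hn
  obtain ⟨h1, h2, s, s', h3, h4, h5, h6⟩ := hp n
  have h7 : σ + D ≤ n := (Nat.le_ceil _).trans (by exact_mod_cast hn)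
  have h8 := F.abs_sub_le h4 h5 h6
  have h9 : dist (F.ft (p n).1) (F.ft (p n).2) ≤ D := hD ⟨_, h1, rfl⟩ ⟨_, h2, rfl⟩
  have h10 : 0 ≤ D := dist_nonneg.trans h9
  rw [abs_sub_le_iff] at h8
  exact (F.conv _ _ s s' h4 h5 h6 σ hσ (by linarith) (by linarith)).trans (by linarith)

theorem end_open {K : Set X} (hK : IsCompact K) {O : Set (X × X)} (hO : IsOpen O)
    (h : ∀ p : X × X, p.1 ∈ K → p.2 ∈ K → L.ep p.1 = L.ep p.2 → p ∈ O) :
    ∃ S : ℝ, 0 ≤ S ∧ F.Z K S ⊆ O := by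
  by_contra hcon
  push Not at hcon
  have h1 : ∀ n : ℕ, ∃ p ∈ F.Z K n, p ∉ O := fun n => by
    have := hcon n (Nat.cast_nonneg n)
    rwa [not_subset] at this
  choose p hp hpO using h1
  obtain ⟨q, hq, ψ, hψ, hlim⟩ := (hK.prod hK).tendsto_subseq
    (x := p) fun n => ⟨(hp n).1, (hp n).2.1⟩
  have h2 : ∀ n : ℕ, p (ψ n) ∈ F.Z K n := by
    intro n
    obtain ⟨a1, a2, s, s', a3, a4, a5, a6⟩ := hp (ψ n)
    refine ⟨a1, a2, s, s', le_trans ?_ a3, a4, a5, a6⟩
    exact_mod_cast hψ.id_le n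
  have h3 := F.end_limit hK h2 hlim
  have h4 : q ∈ O := h q hq.1 hq.2 h3
  obtain ⟨n, hn⟩ := (hlim.eventually (hO.mem_nhds h4)).exists
  exact hpO _ hn

/-- **END**: end points of geodesics from a compact set which meet late are close. -/
theorem end_close {K : Set X} (hK : IsCompact K) {U : Set (B × B)} (hU : IsOpen U)
    (h : ∀ η, (η, η) ∈ U) : ∃ S : ℝ, 0 ≤ S ∧ ∀ v ∈ K, ∀ v' ∈ K, ∀ s s', S ≤ s → 0 ≤ s' →
      F.ft (L.φ s v) = F.ft (L.φ s' v') → (L.ep v, L.ep v') ∈ U := by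
  have hc : Continuous fun p : X × X => (L.ep p.1, L.ep p.2) :=
    ((ep_cont L).comp continuous_fst).prodMk ((ep_cont L).comp continuous_snd)
  obtain ⟨S, hS0, hS⟩ := F.end_open hK (hU.preimage hc) fun p _ _ hp => by
    change (L.ep p.1, L.ep p.2) ∈ U
    rw [hp]; exact h _
  refine ⟨S, hS0, fun v hv v' hv' s s' hs hs' hft => ?_⟩
  have h1 : ((v, v') : X × X) ∈ F.Z K S := ⟨hv, hv', s, s', hs, hS0.trans hs, hs', hft⟩
  exact hS h1

variable {W : X → ℝ}

/-- **DIST**: geodesics from a compact set which meet have the same cocycle up to a constant. -/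
theorem dist_bdd (hW : Continuous W) (hg : ∀ (g : Γ) x, W (g • x) = W x)
    (hr : ∀ a x, W (L.rot a x) = W x) (hH : Hold W) (hH' : Hold fun x => W (L.flip x))
    {K : Set X} (hK : IsCompact K) : ∃ C, 0 ≤ C ∧ ∀ v ∈ K, ∀ v' ∈ K, ∀ s s', 0 ≤ s → 0 ≤ s' →
      F.ft (L.φ s v) = F.ft (L.φ s' v') → |s - s'| ≤ C ∧ |aa L W v s - aa L W v' s'| ≤ C := by
  obtain ⟨D, hD⟩ := Metric.isBounded_iff.1 (hK.image F.cont).isBounded
  obtain ⟨CW, hCW0, hCW⟩ := exists_bound L hW hg
  have hW' : Continuous fun x => W (L.flip x) := hW.comp L.flip_cont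
  -- the compact set of pairs
  have hE : IsCompact ((K ×ˢ K) ∩ {p : X × X | L.ep p.1 = L.ep p.2}) :=
    (hK.prod hK).inter_right (isClosed_eq ((ep_cont L).comp continuous_fst)
      ((ep_cont L).comp continuous_snd))
  have hO : IsOpen {p : X × X | L.em p.1 ≠ L.ep p.2} :=
    isOpen_ne_fun (L.em_cont.comp continuous_fst) ((ep_cont L).comp continuous_snd)
  obtain ⟨L', hL'c, hL'1, hL'2⟩ := exists_compact_between hE hO (by
    rintro p ⟨-, hp⟩
    change L.em p.1 ≠ L.ep p.2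
    rw [← show L.ep p.1 = L.ep p.2 from hp]
    exact L.em_ne_ep p.1)
  obtain ⟨S, hS0, hS⟩ := F.end_open hK isOpen_interior
    fun p h1 h2 h3 => hL'1 ⟨⟨h1, h2⟩, h3⟩
  have hq : Continuous fun p : X × X => (L.em p.1, p.2) :=
    (L.em_cont.comp continuous_fst).prodMk continuous_snd
  obtain ⟨C₁, hC₁⟩ := L.hol_asym _ (hL'c.image hq) (by
    rintro _ ⟨p, hp, rfl⟩
    exact hL'2 hp)
  obtain ⟨C₂, hC₂0, hC₂⟩ := move L D
  obtain ⟨C₃, hC₃0, hC₃⟩ := F.near_of_foot 0
  obtain ⟨C₅, hC₅0, hC₅⟩ := unst L (C₃ + C₂ + |C₁|)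
  obtain ⟨M₁, hM₁⟩ := aa_asym L hW' hH' (D := C₅) L.χ_pos
  obtain ⟨M₂, hM₂⟩ := aa_asym L hW hH (D := C₁) L.χ_pos
  set C : ℝ := |D| + CW * (S + |D|) + CW * S + |M₁| + 2 * (CW * C₅) + |M₂| + CW * |D| with hC
  have hp1 : 0 ≤ CW * (S + |D|) := by positivity
  have hp2 : 0 ≤ CW * S := by positivity
  have hp3 : 0 ≤ CW * C₅ := by positivity
  have hp4 : 0 ≤ CW * |D| := by positivity
  have hp5 := abs_nonneg D
  have hp6 := abs_nonneg M₁
  have hp7 := abs_nonneg M₂
  refine ⟨C, by positivity, fun v hv v' hv' s s' hs hs' hft => ?_⟩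
  have h1 := F.abs_sub_le hs hs' hft
  have h2 : |s - s'| ≤ D := h1.trans (hD ⟨_, hv, rfl⟩ ⟨_, hv', rfl⟩)
  have h2' : |s - s'| ≤ |D| := h2.trans (le_abs_self D)
  refine ⟨by linarith, ?_⟩
  by_cases hsS : s < S
  · -- short times
    have h3 := aa_le L hCW v s
    have h4 := aa_le L hCW v' s'
    rw [abs_of_nonneg hs] at h3
    rw [abs_of_nonneg hs'] at h4
    have h5 : s' ≤ S + |D| := by
      rw [abs_sub_le_iff] at h2'
      linarith [h2'.2]
    have h6 : CW * s ≤ CW * S := mul_le_mul_of_nonneg_left hsS.le hCW0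
    have h7 : CW * s' ≤ CW * (S + |D|) := mul_le_mul_of_nonneg_left h5 hCW0
    have h8 := abs_sub (aa L W v s) (aa L W v' s')
    linarith
  push Not at hsS
  have hp : ((v, v') : X × X) ∈ L' := interior_subset (hS ⟨hv, hv', s, s', hsS, hs, hs', hft⟩)
  have hne : L.em v ≠ L.ep v' := hL'2 hp
  set w := L.hol (L.em v) v' with hw
  have hw1 : ∀ t, 0 ≤ t → dist (L.φ t v') (L.φ t w) ≤ C₁ * Real.exp (-L.χ * t) := fun t ht =>
    hC₁ _ ⟨(v, v'), hp, rfl⟩ t ht
  have hemw : L.em w = L.em v := L.hol_em _ _ hne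
  -- the distance at time `s`
  have h3 : dist (L.φ s v) (L.φ s w) ≤ C₃ + C₂ + |C₁| := by
    have a1 : dist (L.φ s v) (L.φ s' v') ≤ C₃ := hC₃ _ _ (by rw [hft, dist_self])
    have a2 : dist (L.φ s' v') (L.φ s v') ≤ C₂ := by
      have := hC₂ (L.φ s v') (s' - s) (by rw [abs_sub_comm]; exact h2)
      rwa [← L.φ_add, sub_add_cancel] at this
    have a3 : dist (L.φ s v') (L.φ s w) ≤ |C₁| := by
      refine (hw1 s hs).trans ((mul_le_mul_of_nonneg_right (le_abs_self C₁)
        (Real.exp_pos _).le).trans ?_)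
      have : Real.exp (-L.χ * s) ≤ 1 := by
        rw [Real.exp_le_one_iff]
        have := mul_nonneg L.χ_pos.le hs
        linarith
      exact mul_le_of_le_one_right (abs_nonneg _) this
    have b1 := dist_triangle (L.φ s v) (L.φ s' v') (L.φ s v')
    have b2 := dist_triangle (L.φ s v) (L.φ s v') (L.φ s w)
    linarith
  obtain ⟨a, r, hr', har⟩ := hC₅ (L.φ s v) (L.φ s w) (by rw [L.em_φ, L.em_φ, hemw]) h3
  have h4 := hM₁ _ _ har s hs
  have h5 := hM₂ _ _ hw1 s hs
  -- the cocycle of `v`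
  have e1 : aa L W v s = aa L (fun y => W (L.flip y)) (L.flip (L.φ s v)) s := by
    have b1 := aa_neg L hW v s
    rw [aa_flip] at b1
    linarith
  have e2 : aa L W w s = -aa L W (L.rot a (L.φ s w)) (-s) := by
    rw [aa_rot L hr, aa_neg L hW w s, neg_neg]
  have e3 : aa L (fun y => W (L.flip y)) (L.flip (L.φ r (L.rot a (L.φ s w)))) s =
      -aa L W (L.φ r (L.rot a (L.φ s w))) (-s) := by rw [aa_flip, neg_neg]
  have h6 : |aa L W (L.φ r (L.rot a (L.φ s w))) (-s) - aa L W (L.rot a (L.φ s w)) (-s)| ≤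
      2 * (CW * C₅) := by
    set z := L.rot a (L.φ s w) with hz
    have b1 := aa_add L hW z r (-s)
    have b2 := aa_add L hW z (-s) r
    rw [add_comm (-s) r, b1] at b2
    have b3 := aa_le L hCW z r
    have b4 := aa_le L hCW (L.φ (-s) z) r
    have b5 : CW * |r| ≤ CW * C₅ := mul_le_mul_of_nonneg_left hr' hCW0
    have b6 : aa L W (L.φ r z) (-s) - aa L W z (-s) = aa L W (L.φ (-s) z) r - aa L W z r := by
      linarith
    rw [b6]
    have := abs_sub (aa L W (L.φ (-s) z) r) (aa L W z r)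
    linarith
  have h7 : |aa L W v' s - aa L W v' s'| ≤ CW * |D| := by
    have b1 := aa_add L hW v' s' (s - s')
    rw [add_sub_cancel] at b1
    have b2 := aa_le L hCW (L.φ s' v') (s - s')
    have b3 : CW * |s - s'| ≤ CW * |D| := mul_le_mul_of_nonneg_left h2' hCW0
    rw [b1, add_sub_cancel_left]
    linarith
  rw [e3, ← e1] at h4
  rw [abs_le] at h4 h5 h6 h7 ⊢
  have c1 := le_abs_self M₁
  have c2 := le_abs_self M₂
  constructor <;> linarith [h4.1, h4.2, h5.1, h5.2, h6.1, h6.2, h7.1, h7.2]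

/-- **REACH**: the geodesics from `ξ = em x₀` through the far points of geodesics from a compact
set, whose end points stay away from `ξ`, start in a compact set. -/
theorem reach (x₀ : X) {K : Set X} (hK : IsCompact K) (hKx : ∀ v ∈ K, L.em x₀ ≠ L.ep v) :
    ∃ K', IsCompact K' ∧ ∀ v ∈ K, ∀ s, 0 ≤ s → ∀ z, L.em z = L.em x₀ →
      F.ft z = F.ft (L.φ s v) → L.φ (-s) z ∈ K' := by
  have hq : Continuous fun v : X => (L.em x₀, v) := continuous_const.prodMk continuous_id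
  obtain ⟨C₁, hC₁⟩ := L.hol_asym _ (hK.image hq) (by
    rintro _ ⟨v, hv, rfl⟩
    exact hKx v hv)
  obtain ⟨C₃, hC₃0, hC₃⟩ := F.near_of_foot 0
  obtain ⟨C₅, hC₅0, hC₅⟩ := unst L (C₃ + |C₁|)
  obtain ⟨C₆, hC₆0, hC₆⟩ := F.foot_of_near C₅
  obtain ⟨C₇, hC₇0, hC₇⟩ := F.foot_of_near |C₁|
  refine ⟨F.ft ⁻¹' cthickening (C₆ + C₅ + C₇) (F.ft '' K),
    F.proper _ (hK.image F.cont).cthickening, fun v hv s hs z hz hft => ?_⟩
  have hne : L.em x₀ ≠ L.ep v := hKx v hv
  set w := L.hol (L.em x₀) v with hw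
  have hemw : L.em w = L.em x₀ := L.hol_em _ _ hne
  have hexp : ∀ (c : ℝ) t, 0 ≤ t → c * Real.exp (-L.χ * t) ≤ |c| := by
    intro c t ht
    refine (mul_le_mul_of_nonneg_right (le_abs_self c) (Real.exp_pos _).le).trans ?_
    have : Real.exp (-L.χ * t) ≤ 1 := by
      rw [Real.exp_le_one_iff]
      have := mul_nonneg L.χ_pos.le ht
      linarith
    exact mul_le_of_le_one_right (abs_nonneg _) this
  have hw1 : ∀ t, 0 ≤ t → dist (L.φ t v) (L.φ t w) ≤ |C₁| := fun t ht =>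
    (hC₁ _ ⟨v, hv, rfl⟩ t ht).trans (hexp _ t ht)
  have h3 : dist z (L.φ s w) ≤ C₃ + |C₁| := by
    have a1 : dist z (L.φ s v) ≤ C₃ := hC₃ _ _ (by rw [hft, dist_self])
    have a3 := hw1 s hs
    have b1 := dist_triangle z (L.φ s v) (L.φ s w)
    linarith
  obtain ⟨a, r, hr', har⟩ := hC₅ z (L.φ s w) (by rw [hz, L.em_φ, hemw]) h3
  have h4 := (har s hs).trans (hexp _ s hs)
  rw [abs_of_nonneg hC₅0] at h4
  have e1 : L.φ s (L.flip z) = L.flip (L.φ (-s) z) := by rw [L.flip_φ, neg_neg]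
  have e2 : L.φ s (L.flip (L.φ r (L.rot a (L.φ s w)))) = L.flip (L.φ r (L.rot a w)) := by
    have b1 : L.flip (L.φ r (L.rot a w)) = L.flip (L.φ (-s) (L.φ r (L.rot a (L.φ s w)))) := by
      rw [L.rot_φ, ← L.φ_add, ← L.φ_add]
      congr 2
      ring
    rw [b1, L.flip_φ (-s), neg_neg]
  rw [e1, e2] at h4
  have h5 := hC₆ _ _ h4
  rw [F.flip, F.flip] at h5
  have h6 : dist (F.ft (L.φ r (L.rot a w))) (F.ft w) ≤ C₅ := by
    rw [dist_comm, ← F.rot a w, F.unit]
    exact hr'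
  have h7 : dist (F.ft w) (F.ft v) ≤ C₇ := by
    rw [dist_comm]
    refine hC₇ _ _ ?_
    have := hw1 0 le_rfl
    rwa [L.φ_zero, L.φ_zero] at this
  change F.ft (L.φ (-s) z) ∈ cthickening (C₆ + C₅ + C₇) (F.ft '' K)
  refine mem_cthickening_of_dist_le _ (F.ft v) _ _ ⟨v, hv, rfl⟩ ?_
  have b1 := dist_triangle (F.ft (L.φ (-s) z)) (F.ft (L.φ r (L.rot a w))) (F.ft w)
  have b2 := dist_triangle (F.ft (L.φ (-s) z)) (F.ft w) (F.ft v)
  linarith

end Foot

end Vale.Agent.P207.N3.H348
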