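import Vale.Agent.P207.N3.H348.Ac
import Vale.Agent.P207.N3.H76.Asm2

/-!
# P207, line N3, P2: the foot point map of the geometric leaf structure
-/

open Set Filter Topology Metric MeasureTheory

noncomputable section

namespace Vale.Agent.P207.N3.H348

open H728 H76

variable {Γ X Y : Type} [Group Γ] [MetricSpace X] [ProperSpace X] [MetricSpace Y]
  [ProperSpace Y] [MulAction Γ X] [MulAction Γ Y] [IsIsometricSMul Γ X] [IsIsometricSMul Γ Y]

/-- the leaf structure `L` is the one of the geometry `G` -/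
structure GeoLeaf (G : Geo Γ X Y) (o : Y) (L : Leaf Γ X (G.Bnd o)) : Prop where
  em : L.em = G.em o
  φ : L.φ = G.φ
  rot : L.rot = G.rot
  flip : L.flip = G.flip

namespace GeoLeaf

variable {G : Geo Γ X Y} {o : Y} {L : Leaf Γ X (G.Bnd o)} (h : GeoLeaf G o L)

include h

theorem ep (x : X) : L.ep x = G.ep o x := by
  rw [L.ep_flip, h.em, h.flip, G.ep_flip]

/-- the foot point map -/
def foot : Foot L Y where
  ft := G.ft
  cont := G.ft_cont
  smul := G.ft_smul
  rot a x := by rw [h.rot]; exact G.ft_rot a x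
  flip x := by rw [h.flip]; exact G.ft_flip x
  proper := G.ft_proper
  unit x s := by
    rw [h.φ, G.ft_φ, G.E_dist, norm_smul, norm_e0, mul_one, Real.norm_eq_abs]
  conv x y s s' hs hs' hst σ hσ hσs _ := by
    rw [h.φ] at hst ⊢
    rw [← G.p_ft, ← G.p_ft] at hst ⊢
    rw [← G.p_zero x, ← G.p_zero y, dist_comm (G.p x 0)]
    refine G.had.travel (G.p x) (G.p y) (x := G.p y 0) rfl (T := s) ?_ hσ hσs
    rw [hst, Ln.dist_eq, zero_sub, abs_neg, abs_of_nonneg hs']
  asym x y C hC := by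
    rw [h.ep, h.ep]
    refine (G.had.ep_eq_iff o).2 ⟨C, fun t ht => ?_⟩
    have := hC t ht
    rwa [h.φ, ← G.p_ft, ← G.p_ft] at this
  frame q ξ := by
    obtain ⟨x, h1, h2⟩ := G.frame o ξ q
    exact ⟨x, h2, by rw [h.em, h1]⟩
  uniq x y hf he := by
    rw [h.ep, h.ep] at he
    have h1 : Asy (G.p x) (G.p y) := (G.had.ep_eq_iff o).1 he
    have h2 : G.p x = G.p y := Had.Asy.eq G.had h1 (by rw [G.p_zero, G.p_zero, hf])
    rw [h.em]
    change G.had.em o (G.p x) = G.had.em o (G.p y)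
    rw [h2]

theorem foot_ft : h.foot.ft = G.ft := rfl

end GeoLeaf

end Vale.Agent.P207.N3.H348
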