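import Vale.Agent.P207.Q.H129.DetU

/-!
# P207, line N3, P2: the Jacobian of the sphere and the trace of the unstable Riccati solution

`U` the unstable, `V` the stable solution of `X' = K - X²` along an orbit, `A` the Jacobi tensor
with `A 0 = 0`, `A' 0 = 1`: `det A(t) exp(-∫₀ᵗ tr U) det (U 0 - V 0) → 1`, uniformly.
-/

open scoped Topology Matrix
open Set Filter MeasureTheory

noncomputable section

namespace Vale.Agent.P207.N3.H348

open Vale.Agent.P207.Q.DetU

variable {κ : Type} [Fintype κ] [DecidableEq κ]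

/-- the sum of the squares of the entries -/
def fro (E : Matrix κ κ ℝ) : ℝ := ∑ i, ∑ j, E i j ^ 2

omit [DecidableEq κ] in
theorem fro_nonneg (E : Matrix κ κ ℝ) : 0 ≤ fro E :=
  Finset.sum_nonneg fun _ _ => Finset.sum_nonneg fun _ _ => sq_nonneg _

omit [DecidableEq κ] in
theorem eq_zero_of_fro {E : Matrix κ κ ℝ} (h : fro E ≤ 0) : E = 0 := by
  ext i j
  have h1 : ∑ j', E i j' ^ 2 ≤ fro E :=
    Finset.single_le_sum (f := fun i' => ∑ j', E i' j' ^ 2)
      (fun _ _ => Finset.sum_nonneg fun _ _ => sq_nonneg _) (Finset.mem_univ i)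
  have h2 : E i j ^ 2 ≤ ∑ j', E i j' ^ 2 :=
    Finset.single_le_sum (f := fun j' => E i j' ^ 2) (fun _ _ => sq_nonneg _) (Finset.mem_univ j)
  have h3 : E i j ^ 2 = 0 := le_antisymm (h2.trans (h1.trans h)) (sq_nonneg _)
  simpa using h3

omit [DecidableEq κ] in
theorem hasDerivAt_fro {E : ℝ → Matrix κ κ ℝ} {E' : Matrix κ κ ℝ} {t : ℝ} (h : MD E E' t) :
    HasDerivAt (fun s => fro (E s)) (2 * ∑ i, ∑ j, E t i j * E' i j) t := by
  have h1 := HasDerivAt.fun_sum (u := Finset.univ) (A := fun i s => ∑ j, E s i j ^ 2)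
    (A' := fun i => ∑ j, 2 * (E t i j * E' i j)) (x := t) (fun i _ => by
      refine HasDerivAt.fun_sum (u := Finset.univ) fun j _ => ?_
      refine ((h i j).fun_pow 2).congr_deriv ?_
      ring)
  refine h1.congr_deriv ?_
  simp only [Finset.mul_sum]

omit [DecidableEq κ] in
/-- `tr (Eᵀ V E)` -/
theorem sum_mul_left (V E : Matrix κ κ ℝ) :
    ∑ i, ∑ j, E i j * (V * E) i j = ∑ j, (fun i => E i j) ⬝ᵥ (V *ᵥ fun i => E i j) := by
  rw [Finset.sum_comm]
  refine Finset.sum_congr rfl fun j _ => ?_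
  rw [dotProduct]
  refine Finset.sum_congr rfl fun i _ => ?_
  rfl

omit [DecidableEq κ] in
/-- `tr (E U Eᵀ)` -/
theorem sum_mul_right (U E : Matrix κ κ ℝ) (hU : Uᵀ = U) :
    ∑ i, ∑ j, E i j * (E * U) i j = ∑ i, (E i) ⬝ᵥ (U *ᵥ E i) := by
  refine Finset.sum_congr rfl fun i _ => ?_
  rw [dotProduct]
  refine Finset.sum_congr rfl fun j _ => ?_
  rw [Matrix.mul_apply, Matrix.mulVec, dotProduct]
  congr 1
  refine Finset.sum_congr rfl fun k _ => ?_
  have : U k j = U j k := by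
    have := congrFun (congrFun hU j) k
    exact this
  rw [this, mul_comm]

omit [DecidableEq κ] in
theorem fro_eq_col (E : Matrix κ κ ℝ) : fro E = ∑ j, (fun i => E i j) ⬝ᵥ (fun i => E i j) := by
  rw [fro, Finset.sum_comm]
  refine Finset.sum_congr rfl fun j _ => ?_
  rw [dotProduct]
  exact Finset.sum_congr rfl fun i _ => sq _

/-- a linear inequality with zero initial value -/
theorem eq_zero_of_gronwall {f f' : ℝ → ℝ} {c : ℝ} (h : ∀ t, HasDerivAt f (f' t) t)
    (hf : ∀ t, 0 ≤ t → f' t ≤ c * f t) (h0 : f 0 = 0) {t : ℝ} (ht : 0 ≤ t) : f t ≤ 0 := by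
  have h1 : ∀ s, HasDerivAt (fun s => f s * Real.exp (-c * s))
      ((f' s - c * f s) * Real.exp (-c * s)) s := by
    intro s
    have h2 : HasDerivAt (fun s => -c * s) (-c) s := by
      simpa using (hasDerivAt_id s).const_mul (-c)
    refine ((h s).fun_mul h2.exp).congr_deriv ?_
    ring
  have h3 : AntitoneOn (fun s => f s * Real.exp (-c * s)) (Ici 0) := by
    refine antitoneOn_of_deriv_nonpos (convex_Ici 0)
      (fun s _ => (h1 s).continuousAt.continuousWithinAt)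
      (fun s _ => (h1 s).differentiableAt.differentiableWithinAt) fun s hs => ?_
    rw [interior_Ici] at hs
    rw [(h1 s).deriv]
    refine mul_nonpos_of_nonpos_of_nonneg ?_ (Real.exp_pos _).le
    have := hf s (le_of_lt hs)
    linarith
  have h4 := h3 (mem_Ici.2 le_rfl) (mem_Ici.2 ht) ht
  simp only [h0, zero_mul] at h4
  have h5 := Real.exp_pos (-c * t)
  by_contra hcon
  push Not at hcon
  exact absurd (mul_pos hcon h5) (not_lt.2 h4)

variable {K U A A' V : ℝ → Matrix κ κ ℝ} {lam Lam : ℝ}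

/-- the stable solution along the same orbit -/
structure Stab (K V : ℝ → Matrix κ κ ℝ) (lam Lam : ℝ) : Prop where
  dV : ∀ t, MD V (K t - V t * V t) t
  symm : ∀ t, (V t)ᵀ = V t
  hi : ∀ t x, x ⬝ᵥ (V t *ᵥ x) ≤ -(lam * (x ⬝ᵥ x))
  lo : ∀ t x, -(Lam * (x ⬝ᵥ x)) ≤ x ⬝ᵥ (V t *ᵥ x)

open Dat

omit [DecidableEq κ] in
theorem sum_quad_ge {V E : Matrix κ κ ℝ} (hlo : ∀ x, -(Lam * (x ⬝ᵥ x)) ≤ x ⬝ᵥ (V *ᵥ x)) :
    -(Lam * fro E) ≤ ∑ i, ∑ j, E i j * (V * E) i j := by
  rw [sum_mul_left, fro_eq_col, Finset.mul_sum, ← Finset.sum_neg_distrib]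
  exact Finset.sum_le_sum fun j _ => hlo _

/-- `U - V = Z (U₀ - V₀) Wᵀ` -/
theorem delta_eq (h : Dat K U A A' lam Lam) (hV : Stab K V lam Lam) (hl : 0 ≤ lam) {t : ℝ}
    (ht : 0 ≤ t) : U t - V t = W V A A' t * (U 0 - V 0) * (W U A A' t)ᵀ := by
  have dZ : ∀ t, MD (W V A A') (-(V t) * W V A A' t) t := by
    intro t
    refine ((h.dA' t).sub ((hV.dV t).mul (h.dA t))).congr ?_
    rw [W]
    noncomm_ring
  set S := U 0 - V 0 with hS
  have dc : ∀ t, MD (fun _ => S) (0 : Matrix κ κ ℝ) t := fun t i j => hasDerivAt_const t _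
  have dE : ∀ t, MD (fun t => (U t - V t) - W V A A' t * S * (W U A A' t)ᵀ)
      (-(V t * ((U t - V t) - W V A A' t * S * (W U A A' t)ᵀ)) -
        ((U t - V t) - W V A A' t * S * (W U A A' t)ᵀ) * U t) t := by
    intro t
    refine (((h.dU t).sub (hV.dV t)).sub ((((dZ t).mul (dc t))).mul (h.dW t).transpose)).congr ?_
    rw [Matrix.transpose_mul, Matrix.transpose_neg, h.symm]
    noncomm_ring
  have key : fro ((U t - V t) - W V A A' t * S * (W U A A' t)ᵀ) ≤ 0 := by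
    refine eq_zero_of_gronwall (c := 2 * Lam)
      (f := fun t => fro ((U t - V t) - W V A A' t * S * (W U A A' t)ᵀ))
      (fun t => hasDerivAt_fro (dE t)) ?_ ?_ ht
    · intro s _
      set E := (U s - V s) - W V A A' s * S * (W U A A' s)ᵀ with hE
      have e1 : ∑ i, ∑ j, E i j * (-(V s * E) - E * U s) i j =
          -(∑ i, ∑ j, E i j * (V s * E) i j) - ∑ i, ∑ j, E i j * (E * U s) i j := by
        simp only [Matrix.sub_apply, Matrix.neg_apply, mul_sub, mul_neg, Finset.sum_sub_distrib,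
          Finset.sum_neg_distrib]
      rw [e1]
      have e2 := sum_quad_ge (E := E) (hV.lo s)
      have e3 : 0 ≤ ∑ i, ∑ j, E i j * (E * U s) i j := by
        rw [sum_mul_right _ _ (h.symm s)]
        refine Finset.sum_nonneg fun i _ => ?_
        exact le_trans (mul_nonneg hl (dot_self_nonneg' _)) (h.lo s _)
      linarith
    · have hZ0 : W V A A' 0 = 1 := by simp [W, h.A0, h.A'0]
      have e0 : (U 0 - V 0) - W V A A' 0 * S * (W U A A' 0)ᵀ = 0 := by
        rw [hZ0, h.W0, one_mul, Matrix.transpose_one, mul_one, ← hS, sub_self]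
      simp only [e0]
      simp [fro]
  exact sub_eq_zero.1 (eq_zero_of_fro key)

/-- `Z (1 - S₀ P) = W` -/
theorem Z_mul (h : Dat K U A A' lam Lam) (hV : Stab K V lam Lam) (hl : 0 ≤ lam) {t : ℝ}
    (ht : 0 ≤ t) : W V A A' t * (1 - (U 0 - V 0) * P U A A' t) = W U A A' t := by
  have dZ : ∀ t, MD (W V A A') (-(V t) * W V A A' t) t := by
    intro t
    refine ((h.dA' t).sub ((hV.dV t).mul (h.dA t))).congr ?_
    rw [W]
    noncomm_ring
  set S := U 0 - V 0 with hS
  have dc : ∀ t, MD (fun _ => S) (0 : Matrix κ κ ℝ) t := fun t i j => hasDerivAt_const t _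
  have dc1 : ∀ t, MD (fun _ => (1 : Matrix κ κ ℝ)) (0 : Matrix κ κ ℝ) t :=
    fun t i j => hasDerivAt_const t _
  have dD : ∀ t, MD (fun t => W V A A' t * (1 - S * P U A A' t) - W U A A' t)
      (-(V t) * (W V A A' t * (1 - S * P U A A' t) - W U A A' t) +
        ((U t - V t) - W V A A' t * S * (W U A A' t)ᵀ) * W U A A' t) t := by
    intro t
    refine (((dZ t).mul ((dc1 t).sub ((dc t).mul (h.dP t)))).sub (h.dW t)).congr ?_
    noncomm_ring
  have key : fro (W V A A' t * (1 - S * P U A A' t) - W U A A' t) ≤ 0 := by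
    refine eq_zero_of_gronwall (c := 2 * Lam)
      (f := fun t => fro (W V A A' t * (1 - S * P U A A' t) - W U A A' t))
      (fun t => hasDerivAt_fro (dD t)) ?_ ?_ ht
    · intro s hs
      rw [delta_eq h hV hl hs, ← hS, sub_self, zero_mul, add_zero]
      set E := W V A A' s * (1 - S * P U A A' s) - W U A A' s with hE
      have e1 : ∑ i, ∑ j, E i j * (-(V s) * E) i j = -(∑ i, ∑ j, E i j * (V s * E) i j) := by
        simp only [neg_mul, Matrix.neg_apply, mul_neg, Finset.sum_neg_distrib]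
      rw [e1]
      have e2 := sum_quad_ge (E := E) (hV.lo s)
      linarith
    · have hZ0 : W V A A' 0 = 1 := by simp [W, h.A0, h.A'0]
      have e0 : W V A A' 0 * (1 - S * P U A A' 0) - W U A A' 0 = 0 := by
        rw [hZ0, h.W0, h.P0]; simp
      simp only [e0]
      simp [fro]
  exact sub_eq_zero.1 (eq_zero_of_fro key)

/-- `|Z x|² ≥ e^{2 lam t} |x|²` -/
theorem Z_ge (h : Dat K U A A' lam Lam) (hV : Stab K V lam Lam) (x : κ → ℝ) {t : ℝ}
    (ht : 0 ≤ t) : Real.exp (2 * lam * t) * (x ⬝ᵥ x) ≤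
      (W V A A' t *ᵥ x) ⬝ᵥ (W V A A' t *ᵥ x) := by
  have dZ : ∀ t, MD (W V A A') (-(V t) * W V A A' t) t := by
    intro t
    refine ((h.dA' t).sub ((hV.dV t).mul (h.dA t))).congr ?_
    rw [W]
    noncomm_ring
  set q : ℝ → ℝ := fun t => x ⬝ᵥ (((W V A A' t)ᵀ * W V A A' t) *ᵥ x) with hq
  have q_eq' : ∀ t, q t = (W V A A' t *ᵥ x) ⬝ᵥ (W V A A' t *ᵥ x) := by
    intro t
    rw [hq]
    simp only
    rw [← Matrix.mulVec_mulVec, Matrix.dotProduct_mulVec, Matrix.vecMul_transpose]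
  have dq' : ∀ t, HasDerivAt q (- (2 * ((W V A A' t *ᵥ x) ⬝ᵥ (V t *ᵥ (W V A A' t *ᵥ x))))) t := by
    intro t
    have h1 := ((dZ t).transpose.mul (dZ t)).quad x x
    refine h1.congr_deriv ?_
    rw [Matrix.transpose_mul, Matrix.transpose_neg, hV.symm]
    have e : (W V A A' t)ᵀ * -(V t) * W V A A' t + (W V A A' t)ᵀ * (-(V t) * W V A A' t) =
        -((2 : ℝ) • ((W V A A' t)ᵀ * (V t * W V A A' t))) := by
      rw [two_smul]
      noncomm_ring
    rw [e, Matrix.neg_mulVec, dotProduct_neg, Matrix.smul_mulVec, dotProduct_smul, smul_eq_mul,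
      ← Matrix.mulVec_mulVec, Matrix.dotProduct_mulVec x, Matrix.vecMul_transpose,
      Matrix.mulVec_mulVec]
  have h1 : ∀ s, HasDerivAt (fun s => q s * Real.exp (-(2 * lam) * s))
      ((- (2 * ((W V A A' s *ᵥ x) ⬝ᵥ (V s *ᵥ (W V A A' s *ᵥ x)))) -
        2 * lam * q s) * Real.exp (-(2 * lam) * s)) s := by
    intro s
    have h2 : HasDerivAt (fun s => -(2 * lam) * s) (-(2 * lam)) s := by
      simpa using (hasDerivAt_id s).const_mul (-(2 * lam))
    refine ((dq' s).fun_mul h2.exp).congr_deriv ?_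
    ring
  have h3 : Monotone (fun s => q s * Real.exp (-(2 * lam) * s)) := by
    refine monotone_of_deriv_nonneg (fun s => (h1 s).differentiableAt) fun s => ?_
    rw [(h1 s).deriv]
    refine mul_nonneg ?_ (Real.exp_pos _).le
    have := hV.hi s (W V A A' s *ᵥ x)
    rw [q_eq']
    linarith
  have h4 := h3 ht
  have hZ0 : W V A A' 0 = 1 := by simp [W, h.A0, h.A'0]
  have hq0 : q 0 = x ⬝ᵥ x := by rw [q_eq', hZ0, Matrix.one_mulVec]
  simp only [hq0, mul_zero, Real.exp_zero, mul_one] at h4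
  have h5 : Real.exp (-(2 * lam) * t) * Real.exp (2 * lam * t) = 1 := by
    rw [← Real.exp_add]; simp
  rw [← q_eq']
  calc Real.exp (2 * lam * t) * (x ⬝ᵥ x)
      ≤ Real.exp (2 * lam * t) * (q t * Real.exp (-(2 * lam) * t)) :=
        mul_le_mul_of_nonneg_left h4 (Real.exp_pos _).le
    _ = q t * (Real.exp (-(2 * lam) * t) * Real.exp (2 * lam * t)) := by ring
    _ = q t := by rw [h5, mul_one]

/-- `|(1 - S₀ P) x| ≤ e^{-2 lam t} |x|` -/
theorem N_le (h : Dat K U A A' lam Lam) (hV : Stab K V lam Lam) (hl : 0 ≤ lam) (x : κ → ℝ) {t : ℝ}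
    (ht : 0 ≤ t) : ((1 - (U 0 - V 0) * P U A A' t) *ᵥ x) ⬝ᵥ
      ((1 - (U 0 - V 0) * P U A A' t) *ᵥ x) ≤ Real.exp (-(4 * lam) * t) * (x ⬝ᵥ x) := by
  set N := 1 - (U 0 - V 0) * P U A A' t with hN
  have h1 := Z_ge h hV (N *ᵥ x) ht
  rw [Matrix.mulVec_mulVec, hN, Z_mul h hV hl ht, ← hN] at h1
  have h2 := h.q_le x ht
  rw [q_eq] at h2
  have h3 := h1.trans h2
  have h5 : Real.exp (-(2 * lam) * t) * Real.exp (2 * lam * t) = 1 := by
    rw [← Real.exp_add]; simp
  have h6 : Real.exp (-(4 * lam) * t) = Real.exp (-(2 * lam) * t) * Real.exp (-(2 * lam) * t) := by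
    rw [← Real.exp_add]; congr 1; ring
  calc (N *ᵥ x) ⬝ᵥ (N *ᵥ x)
      = Real.exp (-(2 * lam) * t) * (Real.exp (2 * lam * t) * ((N *ᵥ x) ⬝ᵥ (N *ᵥ x))) := by
        rw [← mul_assoc, h5, one_mul]
    _ ≤ Real.exp (-(2 * lam) * t) * (Real.exp (-(2 * lam) * t) * (x ⬝ᵥ x)) :=
        mul_le_mul_of_nonneg_left h3 (Real.exp_pos _).le
    _ = Real.exp (-(4 * lam) * t) * (x ⬝ᵥ x) := by rw [h6, mul_assoc]

/-- entries of `1 - S₀ P` -/
theorem N_entry (h : Dat K U A A' lam Lam) (hV : Stab K V lam Lam) (hl : 0 ≤ lam) {t : ℝ}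
    (ht : 0 ≤ t) (i j : κ) :
    |(1 - (U 0 - V 0) * P U A A' t) i j| ≤ Real.exp (-(2 * lam) * t) := by
  set N := 1 - (U 0 - V 0) * P U A A' t with hN
  have h1 := N_le h hV hl (Pi.single j 1) ht
  rw [← hN] at h1
  have h2 : N *ᵥ Pi.single j 1 = fun i => N i j := by
    funext i; simp
  have h3 : (Pi.single j (1 : ℝ) : κ → ℝ) ⬝ᵥ Pi.single j 1 = 1 := by simp
  rw [h2, h3, mul_one] at h1
  have h4 : N i j ^ 2 ≤ (fun i => N i j) ⬝ᵥ (fun i => N i j) := by
    rw [dotProduct, sq]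
    exact Finset.single_le_sum (f := fun i => N i j * N i j) (fun k _ => mul_self_nonneg _)
      (Finset.mem_univ i)
  have h5 : N i j ^ 2 ≤ Real.exp (-(2 * lam) * t) ^ 2 := by
    refine (h4.trans h1).trans (le_of_eq ?_)
    rw [← Real.exp_nat_mul]
    congr 1
    push_cast
    ring
  exact abs_le_of_sq_le_sq h5 (Real.exp_pos _).le

variable (κ) in
/-- **The limit of the Jacobian**, uniformly in the orbit. -/
theorem det_tendsto (hl : 0 < lam) {ε : ℝ} (hε : 0 < ε) :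
    ∃ S : ℝ, 0 ≤ S ∧ ∀ {K U A A' V : ℝ → Matrix κ κ ℝ}, Dat K U A A' lam Lam →
      Stab K V lam Lam → (Continuous fun s => (U s).trace) → ∀ t, S ≤ t →
        |(A t).det * Real.exp (-∫ s in (0:ℝ)..t, (U s).trace) * (U 0 - V 0).det - 1| ≤ ε := by
  -- continuity of det at 1
  obtain ⟨δ, hδ, hdet⟩ : ∃ δ > 0, ∀ N : Matrix κ κ ℝ, (∀ i j, |N i j| ≤ δ) →
      |(1 - N).det - 1| ≤ ε := by
    have hc : Continuous fun N : κ → κ → ℝ => (1 - Matrix.of N).det :=
      (Continuous.matrix_det (continuous_const.sub continuous_id))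
    have h1 := Metric.continuous_iff.1 hc 0 ε hε
    obtain ⟨δ, hδ, h2⟩ := h1
    refine ⟨δ / 2, by positivity, fun N hN => ?_⟩
    have h3 : dist (fun i j => N i j : κ → κ → ℝ) 0 < δ := by
      refine lt_of_le_of_lt ((dist_pi_le_iff (by positivity : (0:ℝ) ≤ δ / 2)).2 fun i =>
        (dist_pi_le_iff (by positivity)).2 fun j => ?_) (by linarith : δ / 2 < δ)
      rw [Real.dist_eq]
      simpa using hN i j
    have h4 := h2 _ h3
    rw [Real.dist_eq] at h4
    have e1 : (1 - Matrix.of (0 : κ → κ → ℝ)).det = 1 := by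
      have : (Matrix.of (0 : κ → κ → ℝ)) = 0 := rfl
      rw [this, sub_zero, Matrix.det_one]
    rw [e1] at h4
    exact h4.le
  obtain ⟨S, hS⟩ : ∃ S : ℝ, 0 ≤ S ∧ ∀ t, S ≤ t → Real.exp (-(2 * lam) * t) ≤ δ := by
    have h1 : Tendsto (fun t : ℝ => Real.exp (-(2 * lam) * t)) atTop (𝓝 0) := by
      refine Real.tendsto_exp_atBot.comp ?_
      exact (tendsto_id.const_mul_atTop_of_neg (by linarith : -(2 * lam) < 0))
    have h2 := h1.eventually (gt_mem_nhds hδ)
    obtain ⟨S, hS⟩ := (h2.and (eventually_ge_atTop 0)).exists_forall_of_atTop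
    exact ⟨S, (hS S le_rfl).2, fun t ht => (hS t ht).1.le⟩
  refine ⟨S, hS.1, fun {K U A A' V} h hV hc t ht => ?_⟩
  have ht0 : 0 ≤ t := hS.1.trans ht
  have h1 : (A t).det * Real.exp (-∫ s in (0:ℝ)..t, (U s).trace) = (P U A A' t).det := by
    rw [h.det_A hc, mul_assoc, ← Real.exp_add, add_neg_cancel, Real.exp_zero, mul_one]
  have h2 := hdet (1 - (U 0 - V 0) * P U A A' t)
    fun i j => (N_entry h hV hl.le ht0 i j).trans (hS.2 t ht)
  rw [sub_sub_cancel, Matrix.det_mul] at h2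
  rw [h1, mul_comm]
  exact h2

end Vale.Agent.P207.N3.H348
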