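import Vale.Agent.P207.N3.H348.PSys
import Vale.Agent.P207.N3.H732.Liv

/-!
# P207, line N3, P2: absolute continuity

`PSys.shift`: a polar system, seen from the points at distance `T` of the centre.
`PSys.bd_le_vol`: the boundary measure of a set is at most the volume of a truncated cone over it.
-/

open Set Filter Topology Metric MeasureTheory
open scoped ENNReal

noncomputable section

namespace Vale.Agent.P207.N3.H348

open H732

variable {Γ X B : Type} [Group Γ] [MetricSpace X] [ProperSpace X] [MulAction Γ X]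
  [IsIsometricSMul Γ X] [TopologicalSpace B] [CompactSpace B] [T2Space B] [MulAction Γ B]
  [ContinuousConstSMul Γ B] {L : Leaf Γ X B}
  {Y : Type} [MetricSpace Y] [ProperSpace Y] [MulAction Γ Y] [IsIsometricSMul Γ Y]

/-- The geodesics from a far point `ft (φ (-t) x₀)` towards a compact set `Q` of the boundary
without `em x₀` pass, at time `t`, through a compact set which does not depend on `t`. -/
theorem Foot.reach_pt (F : Foot L Y) (x₀ : X) {Q : Set B} (hQ : IsCompact Q)
    (hQx : L.em x₀ ∉ Q) : ∃ K, IsCompact K ∧ ∀ t, 0 ≤ t → ∀ x, F.ft x = F.ft (L.φ (-t) x₀) →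
      L.ep x ∈ Q → L.φ t x ∈ K := by
  have hq : Continuous fun ζ : B => (ζ, L.flip x₀) := continuous_id.prodMk continuous_const
  obtain ⟨C₁, hC₁⟩ := L.hol_asym _ (hQ.image hq) (by
    rintro _ ⟨ζ, hζ, rfl⟩
    simp only
    rw [ep_flip']
    rintro rfl
    exact hQx hζ)
  obtain ⟨C₂, hC₂0, hC₂⟩ := F.foot_of_near |C₁|
  obtain ⟨C₃, hC₃0, hC₃⟩ := F.near_of_foot C₂
  obtain ⟨C₄, hC₄0, hC₄⟩ := unst L C₃
  obtain ⟨C₅, hC₅0, hC₅⟩ := F.foot_of_near C₄
  refine ⟨F.ft ⁻¹' closedBall (F.ft x₀) (C₅ + C₄ + C₂),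
    F.proper _ (isCompact_closedBall _ _), fun t ht x hx hxQ => ?_⟩
  have hexp : ∀ (c : ℝ) t, 0 ≤ t → c * Real.exp (-L.χ * t) ≤ |c| := by
    intro c t ht
    refine (mul_le_mul_of_nonneg_right (le_abs_self c) (Real.exp_pos _).le).trans ?_
    have : Real.exp (-L.χ * t) ≤ 1 := by
      rw [Real.exp_le_one_iff]
      have := mul_nonneg L.χ_pos.le ht
      linarith
    exact mul_le_of_le_one_right (abs_nonneg _) this
  have hne : L.ep x ≠ L.ep (L.flip x₀) := by
    rw [ep_flip']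
    intro h
    exact hQx (h ▸ hxQ)
  set u := L.hol (L.ep x) (L.flip x₀) with hu
  have h1 : ∀ τ, 0 ≤ τ → dist (L.φ τ (L.flip x₀)) (L.φ τ u) ≤ |C₁| := fun τ hτ =>
    (hC₁ _ ⟨L.ep x, hxQ, rfl⟩ τ hτ).trans (hexp _ τ hτ)
  have h2 := hC₂ _ _ (h1 t ht)
  have e1 : L.φ t (L.flip x₀) = L.flip (L.φ (-t) x₀) := by rw [L.flip_φ, neg_neg]
  rw [e1, F.flip] at h2
  have h3 : dist (L.flip x) (L.φ t u) ≤ C₃ := hC₃ _ _ (by rw [F.flip, hx]; exact h2)
  obtain ⟨a, r, hr, har⟩ := hC₄ (L.flip x) (L.φ t u)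
    (by rw [L.em_φ, hu, L.hol_em _ _ hne, ← L.ep_flip]) h3
  have h4 := (har t ht).trans (hexp _ t ht)
  rw [abs_of_nonneg hC₄0, L.flip_flip] at h4
  have e2 : L.φ t (L.flip (L.φ r (L.rot a (L.φ t u)))) = L.flip (L.φ r (L.rot a u)) := by
    have b1 : L.flip (L.φ r (L.rot a u)) = L.flip (L.φ (-t) (L.φ r (L.rot a (L.φ t u)))) := by
      rw [L.rot_φ, ← L.φ_add, ← L.φ_add]
      congr 2
      ring
    rw [b1, L.flip_φ (-t), neg_neg]
  rw [e2] at h4
  have h5 := hC₅ _ _ h4
  rw [F.flip] at h5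
  have h6 : dist (F.ft (L.φ r (L.rot a u))) (F.ft u) ≤ C₄ := by
    rw [dist_comm, ← F.rot a u, F.unit]
    exact hr
  have h7 : dist (F.ft u) (F.ft x₀) ≤ C₂ := by
    have := hC₂ _ _ (h1 0 le_rfl)
    rw [L.φ_zero, L.φ_zero, F.flip, dist_comm] at this
    exact this
  change F.ft (L.φ t x) ∈ closedBall (F.ft x₀) (C₅ + C₄ + C₂)
  rw [mem_closedBall]
  have b1 := dist_triangle (F.ft (L.φ t x)) (F.ft (L.φ r (L.rot a u))) (F.ft u)
  have b2 := dist_triangle (F.ft (L.φ t x)) (F.ft u) (F.ft x₀)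
  linarith

variable [MeasurableSpace B] [MeasurableSpace Y]

namespace PSys

variable {F : Foot L Y} {W : X → ℝ} {vol : Measure Y} {Ω : Type} [MeasurableSpace Ω] {K : Set X}
  {c C : ℝ}

/-- the polar system seen from distance `T` -/
def shift (P : PSys F W vol Ω K c C) (hW : Continuous W) {CW : ℝ} (hCW : ∀ x, |W x| ≤ CW)
    {T : ℝ} (hT : 0 ≤ T) {K' : Set X} (hK' : ∀ v, L.φ T (P.f v) ∈ K') :
    PSys F W vol Ω K' c C where
  θ := P.θ.withDensity fun v => ENNReal.ofReal (Real.exp (aa L W (P.f v) T))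
  finite := by
    have := P.finite
    refine isFiniteMeasure_withDensity ?_
    refine ((lintegral_mono fun v => ENNReal.ofReal_le_ofReal (Real.exp_le_exp.2
      ((le_abs_self _).trans (aa_le L hCW (P.f v) T)))).trans_lt ?_).ne
    rw [lintegral_const]
    exact ENNReal.mul_lt_top ENNReal.ofReal_lt_top (measure_lt_top _ _)
  Ψ v s := P.Ψ v (s + T)
  j v s := P.j v (s + T) * ENNReal.ofReal (Real.exp (-aa L W (P.f v) T))
  meas_Ψ := P.meas_Ψ.comp (measurable_fst.prodMk (measurable_snd.add_const T))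
  meas_j := by
    have h1 : Measurable fun p : Ω × ℝ => aa L W (P.f p.1) T :=
      P.f_aa.comp (measurable_fst.prodMk measurable_const)
    exact (P.meas_j.comp (measurable_fst.prodMk (measurable_snd.add_const T))).mul
      (Real.measurable_exp.comp h1.neg).ennreal_ofReal
  R := P.R ∩ P.ρ ⁻¹' Ioi T
  meas_R := P.meas_R.inter (P.meas_ρ measurableSet_Ioi)
  range := by
    rintro y ⟨hy, hyT⟩
    obtain ⟨v, s, hs, rfl⟩ := P.range y hy
    rw [mem_preimage, P.ρ_Ψ v s hs, mem_Ioi] at hyT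
    exact ⟨v, s - T, by linarith, by rw [sub_add_cancel]⟩
  ρ y := P.ρ y - T
  meas_ρ := P.meas_ρ.sub_const T
  ρ_Ψ v s hs := by rw [P.ρ_Ψ v (s + T) (by linarith), add_sub_cancel_right]
  lint := by
    intro G hG
    have hm : MeasurableSet (P.ρ ⁻¹' Ioi T) := P.meas_ρ measurableSet_Ioi
    have h1 : ∫⁻ y in P.R ∩ P.ρ ⁻¹' Ioi T, G y ∂vol =
        ∫⁻ y in P.R, (P.ρ ⁻¹' Ioi T).indicator G y ∂vol := by
      rw [lintegral_indicator hm, Measure.restrict_restrict hm, inter_comm]
    have hw : Measurable fun v => ENNReal.ofReal (Real.exp (aa L W (P.f v) T)) := by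
      have h2 : Measurable fun v => aa L W (P.f v) T :=
        P.f_aa.comp (measurable_id.prodMk measurable_const)
      exact (Real.measurable_exp.comp h2).ennreal_ofReal
    have hm2 : Measurable fun p : Ω × ℝ => G (P.Ψ p.1 (p.2 + T)) *
        (P.j p.1 (p.2 + T) * ENNReal.ofReal (Real.exp (-aa L W (P.f p.1) T))) := by
      have h1 : Measurable fun p : Ω × ℝ => aa L W (P.f p.1) T :=
        P.f_aa.comp (measurable_fst.prodMk measurable_const)
      exact (hG.comp (P.meas_Ψ.comp (measurable_fst.prodMk (measurable_snd.add_const T)))).mul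
        ((P.meas_j.comp (measurable_fst.prodMk (measurable_snd.add_const T))).mul
          (Real.measurable_exp.comp h1.neg).ennreal_ofReal)
    rw [h1, P.lint _ (hG.indicator hm),
      lintegral_withDensity_eq_lintegral_mul _ hw hm2.lintegral_prod_right']
    refine lintegral_congr fun v => ?_
    simp only [Pi.mul_apply]
    have h3 : ∫⁻ s in Ioi (0 : ℝ), (P.ρ ⁻¹' Ioi T).indicator G (P.Ψ v s) * P.j v s =
        ∫⁻ s in Ioi T, G (P.Ψ v s) * P.j v s := by
      rw [← lintegral_indicator measurableSet_Ioi, ← lintegral_indicator measurableSet_Ioi]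
      refine lintegral_congr fun s => ?_
      by_cases hs : s ∈ Ioi T
      · have hs0 : (0 : ℝ) < s := hT.trans_lt hs
        rw [indicator_of_mem (show s ∈ Ioi (0 : ℝ) from hs0), indicator_of_mem hs,
          indicator_of_mem]
        rw [mem_preimage, P.ρ_Ψ v s hs0]
        exact hs
      · rw [indicator_of_notMem hs]
        by_cases hs0 : (0 : ℝ) < s
        · rw [indicator_of_mem (show s ∈ Ioi (0 : ℝ) from hs0), indicator_of_notMem, zero_mul]
          rw [mem_preimage, P.ρ_Ψ v s hs0]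
          exact hs
        · rw [indicator_of_notMem (show s ∉ Ioi (0 : ℝ) from hs0)]
    have h4 : ∫⁻ s in Ioi T, G (P.Ψ v s) * P.j v s =
        ∫⁻ s in Ioi (0 : ℝ), G (P.Ψ v (s + T)) * P.j v (s + T) := by
      have h5 := (measurePreserving_add_right (volume : Measure ℝ) T)
      have h6 := h5.setLIntegral_comp_preimage_emb
        (measurableEmbedding_addRight T) (fun s => G (P.Ψ v s) * P.j v s) (Ioi T)
      have h7 : (fun x : ℝ => x + T) ⁻¹' Ioi T = Ioi 0 := by
        ext x; simp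
      rw [h7] at h6
      exact h6.symm
    rw [h3, h4, ← lintegral_const_mul]
    · refine lintegral_congr fun s => ?_
      have h8 : ENNReal.ofReal (Real.exp (aa L W (P.f v) T)) *
          ENNReal.ofReal (Real.exp (-aa L W (P.f v) T)) = 1 := by
        rw [← ENNReal.ofReal_mul (Real.exp_pos _).le, ← Real.exp_add, add_neg_cancel,
          Real.exp_zero, ENNReal.ofReal_one]
      calc G (P.Ψ v (s + T)) * P.j v (s + T)
          = (ENNReal.ofReal (Real.exp (aa L W (P.f v) T)) *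
          ENNReal.ofReal (Real.exp (-aa L W (P.f v) T))) *
            (G (P.Ψ v (s + T)) * P.j v (s + T)) := by rw [h8, one_mul]
        _ = _ := by ring
    · exact hm2.comp (measurable_const.prodMk measurable_id)
  f v := L.φ T (P.f v)
  f_mem := hK'
  f_ep := by
    simp only [ep_φ]
    exact P.f_ep
  f_aa := by
    have h1 : (fun p : Ω × ℝ => aa L W (L.φ T (P.f p.1)) p.2) =
        fun p : Ω × ℝ => aa L W (P.f p.1) (T + p.2) - aa L W (P.f p.1) T := by
      funext p
      rw [aa_add L hW]; ring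
    rw [h1]
    exact (P.f_aa.comp (measurable_fst.prodMk (measurable_snd.const_add T))).sub
      (P.f_aa.comp (measurable_fst.prodMk measurable_const))
  Ψ_eq v s hs := by rw [P.Ψ_eq v (s + T) (by linarith), ← L.φ_add]
  dir := P.dir
  meas_dir := P.meas_dir
  dir_Ψ v s hs := P.dir_Ψ v (s + T) (by linarith)
  lo v s hs := by
    have h1 := P.lo v (s + T) (by linarith)
    refine le_trans ?_ (mul_le_mul_left h1 _)
    rw [← ENNReal.ofReal_mul' (Real.exp_pos _).le]
    refine ENNReal.ofReal_le_ofReal (le_of_eq ?_)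
    rw [mul_assoc, ← Real.exp_add, add_comm s T, aa_add L hW]
    congr 2
    ring
  hi v s hs := by
    have h1 := P.hi v (s + T) (by linarith)
    refine (mul_le_mul_left h1 _).trans ?_
    rw [← ENNReal.ofReal_mul' (Real.exp_pos _).le]
    refine ENNReal.ofReal_le_ofReal (le_of_eq ?_)
    rw [mul_assoc, ← Real.exp_add, add_comm s T, aa_add L hW]
    congr 2
    ring

/-- the boundary measure is at most the volume of a truncated cone -/
theorem bd_le_vol (P : PSys F W vol Ω K c C) {CW : ℝ} (hCW0 : 0 ≤ CW) (hCW : ∀ x, |W x| ≤ CW)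
    (hc : 0 < c) {A : Set B} (hA : MeasurableSet A) :
    ENNReal.ofReal (c * Real.exp (-(CW * 2))) * P.bd A ≤
      vol {y | y ∈ P.R ∧ P.ρ y ∈ Ioc (1 : ℝ) 2 ∧ L.ep (P.f (P.dir y)) ∈ A} := by
  have hmA : MeasurableSet {y | L.ep (P.f (P.dir y)) ∈ A} := P.f_ep.comp P.meas_dir hA
  have hmS : MeasurableSet {v | L.ep (P.f v) ∈ A} := P.f_ep hA
  have e1 : {y | y ∈ P.R ∧ P.ρ y ∈ Ioc (1 : ℝ) 2 ∧ L.ep (P.f (P.dir y)) ∈ A} =
      (P.ρ ⁻¹' Ioc 1 2 ∩ {y | L.ep (P.f (P.dir y)) ∈ A}) ∩ P.R := by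
    ext y
    simp only [mem_ofPred_eq, mem_inter_iff, mem_preimage]
    tauto
  have e2 : vol ((P.ρ ⁻¹' Ioc 1 2 ∩ {y | L.ep (P.f (P.dir y)) ∈ A}) ∩ P.R) =
      ∫⁻ y in P.R, (P.ρ ⁻¹' Ioc (1 : ℝ) 2).indicator
        ({y | L.ep (P.f (P.dir y)) ∈ A}.indicator 1) y ∂vol := by
    rw [lintegral_indicator (P.meas_ρ measurableSet_Ioc), lintegral_indicator_one hmA,
      Measure.restrict_restrict (P.meas_ρ measurableSet_Ioc), Measure.restrict_apply hmA]
    congr 1
    ext y
    simp only [mem_inter_iff]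
    tauto
  rw [e1, e2, P.toPolar.lint_shell (measurable_one.indicator hmA) zero_le_one]
  have e3 : ENNReal.ofReal (c * Real.exp (-(CW * 2))) * P.bd A =
      ∫⁻ v, {v | L.ep (P.f v) ∈ A}.indicator
        (fun _ => ENNReal.ofReal (c * Real.exp (-(CW * 2)))) v ∂P.θ := by
    rw [lintegral_indicator hmS, setLIntegral_const, bd, Measure.map_apply P.f_ep hA]
    rfl
  rw [e3]
  refine lintegral_mono fun v => ?_
  by_cases hv : L.ep (P.f v) ∈ A
  · rw [indicator_of_mem (show v ∈ {v | L.ep (P.f v) ∈ A} from hv)]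
    have h1 : ∫⁻ _s in Ioc (1 : ℝ) 2, ENNReal.ofReal (c * Real.exp (-(CW * 2))) =
        ENNReal.ofReal (c * Real.exp (-(CW * 2))) := by
      rw [setLIntegral_const, Real.volume_Ioc]
      norm_num
    rw [← h1]
    refine setLIntegral_mono' measurableSet_Ioc fun s hs => ?_
    have hs0 : 0 < s := one_pos.trans hs.1
    rw [indicator_of_mem (show P.Ψ v s ∈ {y | L.ep (P.f (P.dir y)) ∈ A} by
      rw [mem_ofPred_eq, P.dir_Ψ v s hs0]; exact hv), Pi.one_apply, one_mul]
    refine le_trans (ENNReal.ofReal_le_ofReal ?_) (P.lo v s hs.1.le)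
    refine mul_le_mul_of_nonneg_left (Real.exp_le_exp.2 ?_) hc.le
    have h2 := aa_le L hCW (P.f v) s
    rw [abs_of_pos hs0] at h2
    have h3 : CW * s ≤ CW * 2 := mul_le_mul_of_nonneg_left hs.2 hCW0
    have h4 := neg_abs_le (aa L W (P.f v) s)
    linarith
  · rw [indicator_of_notMem (show v ∉ {v | L.ep (P.f v) ∈ A} from hv)]
    exact zero_le

end PSys

end Vale.Agent.P207.N3.H348
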