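import Vale.Agent.P207.N3.H348.Shell
import Vale.Agent.P207.N3.H348.Foot

/-!
# P207, line N3, P2: polar systems made of geodesics

`PSys.le`: two polar systems made of geodesics define equivalent measures on the boundary, with a
constant which depends only on the compact sets of frames and on the constants of the densities.
-/

open Set Filter Topology Metric MeasureTheory
open scoped ENNReal

noncomputable section

namespace Vale.Agent.P207.N3.H348

open H732

variable {Γ X B : Type} [Group Γ] [MetricSpace X] [ProperSpace X] [MulAction Γ X]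
  [IsIsometricSMul Γ X] [TopologicalSpace B] [CompactSpace B] [T2Space B] [MulAction Γ B]
  [ContinuousConstSMul Γ B] [MeasurableSpace B] {L : Leaf Γ X B}
  {Y : Type} [MetricSpace Y] [ProperSpace Y] [MulAction Γ Y] [IsIsometricSMul Γ Y]
  [MeasurableSpace Y]

/-- A polar system made of geodesics with initial frames in the set `K`. -/
structure PSys (F : Foot L Y) (W : X → ℝ) (vol : Measure Y) (Ω : Type) [MeasurableSpace Ω]
    (K : Set X) (c C : ℝ) extends Polar vol Ω where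
  f : Ω → X
  f_mem : ∀ v, f v ∈ K
  f_ep : Measurable fun v => L.ep (f v)
  f_aa : Measurable fun p : Ω × ℝ => aa L W (f p.1) p.2
  Ψ_eq : ∀ v s, 0 < s → Ψ v s = F.ft (L.φ s (f v))
  dir : Y → Ω
  meas_dir : Measurable dir
  dir_Ψ : ∀ v s, 0 < s → dir (Ψ v s) = v
  lo : ∀ v s, 1 ≤ s → ENNReal.ofReal (c * Real.exp (aa L W (f v) s)) ≤ j v s
  hi : ∀ v s, 1 ≤ s → j v s ≤ ENNReal.ofReal (C * Real.exp (aa L W (f v) s))

namespace PSys

variable {F : Foot L Y} {W : X → ℝ} {vol : Measure Y} {Ω Ω₀ Ω₁ : Type} [MeasurableSpace Ω]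
  [MeasurableSpace Ω₀] [MeasurableSpace Ω₁] {K K₀ K₁ : Set X} {c C c₀ C₀ c₁ C₁ : ℝ}

/-- the measure on the boundary -/
def bd (P : PSys F W vol Ω K c C) : Measure B := P.θ.map fun v => L.ep (P.f v)

/-- the directions in a measurable set, as a polar system -/
def sub (P : PSys F W vol Ω K c C) {S : Set Ω} (hS : MeasurableSet S) (v₀ : S) :
    PSys F W vol S K c C where
  θ := P.θ.comap Subtype.val
  finite := by
    have := P.finite
    exact ⟨by
      rw [(MeasurableEmbedding.subtype_coe hS).comap_apply]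
      exact measure_lt_top _ _⟩
  Ψ v s := P.Ψ v s
  j v s := P.j v s
  meas_Ψ := P.meas_Ψ.comp ((measurable_subtype_coe.comp measurable_fst).prodMk measurable_snd)
  meas_j := P.meas_j.comp ((measurable_subtype_coe.comp measurable_fst).prodMk measurable_snd)
  R := P.R ∩ P.dir ⁻¹' S
  meas_R := P.meas_R.inter (P.meas_dir hS)
  range := by
    rintro y ⟨hy, hyS⟩
    obtain ⟨v, s, hs, rfl⟩ := P.range y hy
    rw [mem_preimage, P.dir_Ψ v s hs] at hyS
    exact ⟨⟨v, hyS⟩, s, hs, rfl⟩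
  ρ := P.ρ
  meas_ρ := P.meas_ρ
  ρ_Ψ v s hs := P.ρ_Ψ v s hs
  lint := by
    intro G hG
    have hm : MeasurableSet (P.dir ⁻¹' S) := P.meas_dir hS
    have h1 : ∫⁻ y in P.R ∩ P.dir ⁻¹' S, G y ∂vol =
        ∫⁻ y in P.R, (P.dir ⁻¹' S).indicator G y ∂vol := by
      rw [lintegral_indicator hm, Measure.restrict_restrict hm, inter_comm]
    rw [h1, P.lint _ (hG.indicator hm), lintegral_subtype_comap hS
      (fun v => ∫⁻ s in Ioi (0 : ℝ), G (P.Ψ v s) * P.j v s), ← lintegral_indicator hS]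
    refine lintegral_congr fun v => ?_
    by_cases hv : v ∈ S
    · rw [indicator_of_mem hv]
      refine setLIntegral_congr_fun measurableSet_Ioi fun s hs => ?_
      rw [indicator_of_mem]
      rw [mem_preimage, P.dir_Ψ v s hs]
      exact hv
    · rw [indicator_of_notMem hv, setLIntegral_congr_fun (g := fun _ => 0) measurableSet_Ioi,
        lintegral_zero]
      intro s hs
      simp only
      rw [indicator_of_notMem, zero_mul]
      rw [mem_preimage, P.dir_Ψ v s hs]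
      exact hv
  f v := P.f v
  f_mem v := P.f_mem v
  f_ep := P.f_ep.comp measurable_subtype_coe
  f_aa := P.f_aa.comp ((measurable_subtype_coe.comp measurable_fst).prodMk measurable_snd)
  Ψ_eq v s hs := P.Ψ_eq v s hs
  dir := by
    classical
    exact fun y => ⟨if P.dir y ∈ S then P.dir y else v₀, by
      split_ifs with h
      exacts [h, v₀.2]⟩
  meas_dir := by
    classical
    exact Measurable.subtype_mk (Measurable.ite (P.meas_dir hS) P.meas_dir measurable_const)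
  dir_Ψ := by
    intro v s hs
    apply Subtype.ext
    simp only
    rw [P.dir_Ψ v s hs, if_pos v.2]
  lo v s hs := P.lo v s hs
  hi v s hs := P.hi v s hs

theorem sub_bd (P : PSys F W vol Ω K c C) {S : Set Ω} (hS : MeasurableSet S) (v₀ : S) :
    (P.sub hS v₀).bd = (P.θ.restrict S).map fun v => L.ep (P.f v) := by
  unfold bd
  change (P.θ.comap Subtype.val).map (fun v : S => L.ep (P.f v)) = _
  rw [← map_comap_subtype_coe hS, Measure.map_map P.f_ep measurable_subtype_coe]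
  rfl

/-- forgetting: a larger set of frames, weaker constants -/
def weak (P : PSys F W vol Ω K c C) {K' : Set X} {c' C' : ℝ} (hK : K ⊆ K') (hc : c' ≤ c)
    (hC : C ≤ C') : PSys F W vol Ω K' c' C' where
  toPolar := P.toPolar
  f := P.f
  f_mem v := hK (P.f_mem v)
  f_ep := P.f_ep
  f_aa := P.f_aa
  Ψ_eq := P.Ψ_eq
  dir := P.dir
  meas_dir := P.meas_dir
  dir_Ψ := P.dir_Ψ
  lo v s hs := (ENNReal.ofReal_le_ofReal (mul_le_mul_of_nonneg_right hc (Real.exp_pos _).le)).trans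
    (P.lo v s hs)
  hi v s hs := (P.hi v s hs).trans
    (ENNReal.ofReal_le_ofReal (mul_le_mul_of_nonneg_right hC (Real.exp_pos _).le))

variable [BorelSpace B] [SecondCountableTopology B]

/-- **The comparison of the boundary measures of two polar systems.** The constant depends only on
`K`, `c₁` and `C₀`. -/
theorem le (hW : Continuous W) (hg : ∀ (g : Γ) x, W (g • x) = W x)
    (hr : ∀ a x, W (L.rot a x) = W x) (hH : Hold W) (hH' : Hold fun x => W (L.flip x))
    (hK : IsCompact K) (hc₁ : 0 < c₁) (hC₀ : 0 < C₀) : ∃ A : NNReal, 0 < A ∧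
      ∀ {Ω₀ Ω₁ : Type} [MeasurableSpace Ω₀] [MeasurableSpace Ω₁]
        (P₀ : PSys F W vol Ω₀ K c₀ C₀) (P₁ : PSys F W vol Ω₁ K c₁ C₁),
        (∃ S : ℝ, ∀ v s, S < s → P₁.Ψ v s ∈ P₀.R) → P₁.bd ≤ A • P₀.bd := by
  obtain ⟨D, hD0, hD⟩ := F.dist_bdd hW hg hr hH hH' hK
  set G₁ : ℝ := c₁ * Real.exp (-D) with hG₁
  have hG₁0 : 0 < G₁ := mul_pos hc₁ (Real.exp_pos _)
  refine ⟨(C₀ / G₁).toNNReal, Real.toNNReal_pos.2 (div_pos hC₀ hG₁0), ?_⟩
  intro Ω₀ Ω₁ _ _ P₀ P₁ ⟨S₀, hS₀⟩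
  let _ : MetricSpace B := TopologicalSpace.metrizableSpaceMetric B
  -- the coordinates of `P₀`
  have key : ∀ v s, 0 < s → P₁.Ψ v s ∈ P₀.R → ∃ v₀ s₀, 0 < s₀ ∧ P₀.dir (P₁.Ψ v s) = v₀ ∧
      P₀.ρ (P₁.Ψ v s) = s₀ ∧ F.ft (L.φ s (P₁.f v)) = F.ft (L.φ s₀ (P₀.f v₀)) := by
    intro v s hs hy
    obtain ⟨v₀, s₀, hs₀, h0⟩ := P₀.range _ hy
    refine ⟨v₀, s₀, hs₀, ?_, ?_, ?_⟩
    · rw [← h0, P₀.dir_Ψ v₀ s₀ hs₀]
    · rw [← h0, P₀.ρ_Ψ v₀ s₀ hs₀]
    · rw [← P₁.Ψ_eq v s hs, ← P₀.Ψ_eq v₀ s₀ hs₀, h0]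
  -- the weight
  set ω₀ : Y → ℝ≥0∞ := fun y => ENNReal.ofReal (Real.exp (-aa L W (P₀.f (P₀.dir y)) (P₀.ρ y)))
    with hω₀
  have hω₀m : Measurable ω₀ := by
    have h1 : Measurable fun y => aa L W (P₀.f (P₀.dir y)) (P₀.ρ y) :=
      P₀.f_aa.comp (P₀.meas_dir.prodMk P₀.meas_ρ)
    exact (Real.measurable_exp.comp h1.neg).ennreal_ofReal
  have hmain := boundary_le (B := B) P₀.toPolar P₁.toPolar (vol := vol)
    (pr := fun y => L.ep (P₀.f (P₀.dir y))) (P₀.f_ep.comp P₀.meas_dir)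
    (end₀ := fun v => L.ep (P₀.f v)) P₀.f_ep (end₁ := fun v => L.ep (P₁.f v)) P₁.f_ep
    (ω := ω₀) hω₀m (G₀ := fun _ => C₀.toNNReal) measurable_const
    (G₁ := fun _ => G₁.toNNReal) measurable_const (K := max C₀.toNNReal G₁.toNNReal)
    (fun _ => le_max_left _ _) (fun _ => le_max_right _ _) (C := D) ?_ ?_ ?_ ?_ ?_
  · -- conclusion
    rw [withDensity_const, withDensity_const, Measure.map_smul, Measure.map_smul] at hmain
    have h1 : (G₁.toNNReal : ℝ≥0∞) ≠ 0 := by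
      rw [Ne, ENNReal.coe_eq_zero, Real.toNNReal_eq_zero, not_le]
      exact hG₁0
    refine Measure.le_iff.2 fun s hs => ?_
    have h2 := hmain s
    simp only [Measure.smul_apply, smul_eq_mul] at h2
    change P₁.bd s ≤ _
    have h3 : (G₁.toNNReal : ℝ≥0∞) * P₁.bd s ≤ C₀.toNNReal * P₀.bd s := h2
    have h4 : (((C₀ / G₁).toNNReal : NNReal) : ℝ≥0∞) * (G₁.toNNReal : ℝ≥0∞) = C₀.toNNReal := by
      rw [← ENNReal.coe_mul, ← Real.toNNReal_mul (div_pos hC₀ hG₁0).le,
        div_mul_cancel₀ _ hG₁0.ne']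
    rw [← h4, mul_comm (((C₀ / G₁).toNNReal : NNReal) : ℝ≥0∞), mul_assoc] at h3
    have h5 := (ENNReal.mul_le_mul_iff_right h1 ENNReal.coe_ne_top).1 h3
    rw [Measure.smul_apply]
    exact h5
  · refine ⟨max S₀ 0, fun v s hs => ?_⟩
    have hs0 : 0 < s := (le_max_right _ _).trans_lt hs
    have hy := hS₀ v s ((le_max_left _ _).trans_lt hs)
    refine ⟨hy, ?_⟩
    obtain ⟨v₀, s₀, h1, h2, h3, h4⟩ := key v s hs0 hy
    rw [h3, abs_sub_comm]
    exact (hD _ (P₁.f_mem v) _ (P₀.f_mem v₀) s s₀ hs0.le h1.le h4).1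
  · intro ε hε
    obtain ⟨S, hS0, hS⟩ := F.end_close hK (U := {p : B × B | dist p.1 p.2 < ε})
      (isOpen_lt continuous_dist continuous_const) (fun η => by simpa using hε)
    refine ⟨max (max S₀ 0) S, fun v s hs => ?_⟩
    have hs0 : 0 < s := ((le_max_right _ _).trans (le_max_left _ _)).trans_lt hs
    have hy := hS₀ v s (((le_max_left _ _).trans (le_max_left _ _)).trans_lt hs)
    obtain ⟨v₀, s₀, h1, h2, h3, h4⟩ := key v s hs0 hy
    have h5 := hS _ (P₁.f_mem v) _ (P₀.f_mem v₀) s s₀ ((le_max_right _ _).trans hs.le) h1.le h4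
    rw [h2, dist_comm]
    exact le_of_lt h5
  · intro ε hε
    refine ⟨0, fun v s hs => ?_⟩
    rw [P₀.dir_Ψ v s hs, dist_self]
    exact hε.le
  · intro ε hε
    refine ⟨max S₀ 1, fun v s hs => ?_⟩
    have hs1 : 1 ≤ s := ((le_max_right _ _).trans_lt hs).le
    have hs0 : 0 < s := one_pos.trans_le hs1
    have hy := hS₀ v s ((le_max_left _ _).trans_lt hs)
    obtain ⟨v₀, s₀, h1, h2, h3, h4⟩ := key v s hs0 hy
    have h5 := (hD _ (P₁.f_mem v) _ (P₀.f_mem v₀) s s₀ hs0.le h1.le h4).2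
    refine le_trans ?_ le_self_add
    have h6 := P₁.lo v s hs1
    have h7 : (G₁.toNNReal : ℝ≥0∞) = ENNReal.ofReal G₁ := rfl
    rw [h7]
    have h8 : ω₀ (P₁.Ψ v s) = ENNReal.ofReal (Real.exp (-aa L W (P₀.f v₀) s₀)) := by
      simp only [hω₀, h2, h3]
    rw [h8]
    refine le_trans ?_ (mul_le_mul_right h6 _)
    rw [← ENNReal.ofReal_mul (Real.exp_pos _).le]
    refine ENNReal.ofReal_le_ofReal ?_
    rw [hG₁, mul_left_comm, ← Real.exp_add]
    refine mul_le_mul_of_nonneg_left (Real.exp_le_exp.2 ?_) hc₁.le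
    rw [abs_le] at h5
    linarith [h5.1]
  · intro ε hε
    refine ⟨1, fun v s hs => ?_⟩
    have hs0 : 0 < s := one_pos.trans hs
    refine le_trans ?_ le_self_add
    have h6 := P₀.hi v s hs.le
    have h8 : ω₀ (P₀.Ψ v s) = ENNReal.ofReal (Real.exp (-aa L W (P₀.f v) s)) := by
      simp only [hω₀, P₀.dir_Ψ v s hs0, P₀.ρ_Ψ v s hs0]
    rw [h8]
    refine (mul_le_mul_right h6 _).trans ?_
    rw [← ENNReal.ofReal_mul (Real.exp_pos _).le, mul_left_comm, ← Real.exp_add, neg_add_cancel,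
      Real.exp_zero, mul_one]
    rfl

end PSys

end Vale.Agent.P207.N3.H348
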