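import Vale.Agent.P207.N3.H348.FootG

/-!
# P207, line N3, P2: the polar systems of points, from the geometry
-/

open Set Filter Topology Metric MeasureTheory
open scoped ENNReal

noncomputable section

namespace Vale.Agent.P207.N3.H348

open H728 H76

namespace Polar

variable {Y Ω : Type*} [MeasurableSpace Y] [MeasurableSpace Ω] {vol : Measure Y}

/-- change of the measure by a density -/
def weight (P : Polar vol Ω) {w : Y → ℝ≥0∞} (hw : Measurable w) : Polar (vol.withDensity w) Ω where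
  θ := P.θ
  finite := P.finite
  Ψ := P.Ψ
  j v s := w (P.Ψ v s) * P.j v s
  meas_Ψ := P.meas_Ψ
  meas_j := (hw.comp P.meas_Ψ).mul P.meas_j
  R := P.R
  meas_R := P.meas_R
  range := P.range
  ρ := P.ρ
  meas_ρ := P.meas_ρ
  ρ_Ψ := P.ρ_Ψ
  lint G hG := by
    rw [setLIntegral_withDensity_eq_setLIntegral_mul _ hw hG P.meas_R, P.lint _ (hw.mul hG)]
    refine lintegral_congr fun v => ?_
    refine lintegral_congr fun s => ?_
    simp only [Pi.mul_apply]
    ring

end Polar

variable {Γ X Y : Type} [Group Γ] [MetricSpace X] [ProperSpace X] [MetricSpace Y]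
  [ProperSpace Y] [MulAction Γ X] [MulAction Γ Y] [IsIsometricSMul Γ X] [IsIsometricSMul Γ Y]

/-- a rotation with first column `u` -/
def rt (u : sphere (0 : E3) 1) : O3 :=
  (exists_rot_e0 (mem_sphere_zero_iff_norm.1 u.2)).choose

theorem rt_e0 (u : sphere (0 : E3) 1) : rt u e0 = (u : E3) :=
  (exists_rot_e0 (mem_sphere_zero_iff_norm.1 u.2)).choose_spec

variable (G : Geo Γ X Y)

/-- the frame at the foot point of `x` with first vector `u` -/
def fu (x : X) (u : sphere (0 : E3) 1) : X := G.act (rt u) x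

theorem ft_fu (x : X) (u : sphere (0 : E3) 1) : G.ft (fu G x u) = G.ft x := G.ft_act _ _

theorem p_fu (x : X) (u : sphere (0 : E3) 1) (t : ℝ) : G.p (fu G x u) t = G.E x (t • (u : E3)) := by
  rw [G.p_apply, fu, G.E_act, map_smul, rt_e0]

theorem p_fu_cont (x : X) : Continuous fun u : sphere (0 : E3) 1 => G.p (fu G x u) := by
  refine Ln.continuous_mk (f := fun u => G.p (fu G x u)) fun t => ?_
  have h : (fun u : sphere (0 : E3) 1 => (G.p (fu G x u)) t) =
      fun u : sphere (0 : E3) 1 => G.E x (t • (u : E3)) := funext fun u => p_fu G x u t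
  rw [h]
  exact G.E_cont.comp (continuous_const.prodMk (continuous_subtype_val.const_smul t))

/-- every frame at the foot point of `x` has the line of some `fu x u` -/
theorem exists_fu (x y : X) (h : G.ft x = G.ft y) : ∃ u, G.p (fu G x u) = G.p y := by
  obtain ⟨A, rfl⟩ := G.act_trans x y h
  have hA : ‖A e0‖ = 1 := by rw [LinearIsometryEquiv.norm_map, norm_e0]
  refine ⟨⟨A e0, mem_sphere_zero_iff_norm.2 hA⟩, Ln.ext' fun t => ?_⟩
  rw [p_fu, G.p_apply, G.E_act, map_smul]

/-- a rotation invariant function is a function of the line -/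
theorem exists_line_fun {W : X → ℝ} (hW : Continuous W) (hr : ∀ a x, W (G.rot a x) = W x) :
    ∃ W' : Ln Y → ℝ, Continuous W' ∧ ∀ x, W' (G.p x) = W x := by
  choose s hs using G.p_surj
  have h1 : ∀ x, W (s (G.p x)) = W x := by
    intro x
    obtain ⟨a, ha⟩ := G.p_eq_iff.1 (hs (G.p x)).symm
    rw [ha, hr]
  refine ⟨fun c => W (s c), ?_, h1⟩
  rw [G.isQuotientMap_p.continuous_iff]
  have h2 : (fun c => W (s c)) ∘ G.p = W := funext h1
  rw [h2]
  exact hW

section Sys

variable {G} {o : Y} {L : Leaf Γ X (G.Bnd o)} (hGL : GeoLeaf G o L)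

include hGL

theorem ep_fu_cont (x : X) : Continuous fun u => L.ep (fu G x u) := by
  have h : (fun u => L.ep (fu G x u)) = fun u => G.had.ep o (G.p (fu G x u)) :=
    funext fun u => hGL.ep _
  rw [h]
  exact (G.had.continuous_ep o).comp (p_fu_cont G x)

theorem ep_fu_surj (x : X) (η : G.Bnd o) : ∃ u, L.ep (fu G x u) = η := by
  obtain ⟨y, hy1, hy2⟩ := hGL.foot.frame_ep (G.ft x) η
  obtain ⟨u, hu⟩ := exists_fu G x y hy1.symm
  refine ⟨u, ?_⟩
  rw [← hy2, hGL.ep, hGL.ep]
  change G.had.ep o (G.p _) = G.had.ep o (G.p _)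
  rw [hu]

theorem aa_fu_cont {W : X → ℝ} (hW : Continuous W) (hr : ∀ a x, W (L.rot a x) = W x) (x : X) :
    Continuous fun p : sphere (0 : E3) 1 × ℝ => aa L W (fu G x p.1) p.2 := by
  obtain ⟨W', hW', h⟩ := exists_line_fun G hW (fun a x => by rw [← hGL.rot]; exact hr a x)
  have h1 : ∀ (u : sphere (0 : E3) 1) (t : ℝ), W (L.φ t (fu G x u)) =
      W' ((G.p (fu G x u)).φ t) := by
    intro u t
    rw [← G.p_φ, h, hGL.φ]
  unfold aa
  simp only [h1]
  have h2 : Continuous (Function.uncurry fun (p : sphere (0 : E3) 1 × ℝ) (t : ℝ) =>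
      W' ((G.p (fu G x p.1)).φ t)) :=
    hW'.comp (Ln.continuous_φ.comp (continuous_snd.prodMk
      ((p_fu_cont G x).comp (continuous_fst.comp continuous_fst))))
  exact intervalIntegral.continuous_parametric_intervalIntegral_of_continuous h2 continuous_snd

variable [MeasurableSpace Y] [BorelSpace Y] [MeasurableSpace (G.Bnd o)] [BorelSpace (G.Bnd o)]

omit [BorelSpace Y] in
/-- **the polar system of a point** -/
def psysG {W : X → ℝ} (hW : Continuous W) (hr : ∀ a x, W (L.rot a x) = W x) {vol : Measure Y}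
    (x : X) (P : Polar vol (sphere (0 : E3) 1)) (hΨ : ∀ u s, P.Ψ u s = G.E x (s • (u : E3)))
    (dir : Y → sphere (0 : E3) 1) (hdir : Measurable dir)
    (dir_Ψ : ∀ u s, 0 < s → dir (P.Ψ u s) = u) {c C : ℝ}
    (lo : ∀ u s, 1 ≤ s → ENNReal.ofReal (c * Real.exp (aa L W (fu G x u) s)) ≤ P.j u s)
    (hi : ∀ u s, 1 ≤ s → P.j u s ≤ ENNReal.ofReal (C * Real.exp (aa L W (fu G x u) s)))
    {q : Y} (hq : G.ft x = q) :
    PSys hGL.foot W vol (sphere (0 : E3) 1) (hGL.foot.ft ⁻¹' {q}) c C where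
  toPolar := P
  f := fu G x
  f_mem u := by
    change G.ft (fu G x u) = q
    rw [ft_fu, hq]
  f_ep := (ep_fu_cont hGL x).measurable
  f_aa := (aa_fu_cont hGL hW hr x).measurable
  Ψ_eq u s _ := by
    rw [hΨ, hGL.φ]
    change _ = G.ft (G.φ s (fu G x u))
    rw [← G.p_ft, p_fu]
  dir := dir
  meas_dir := hdir
  dir_Ψ := dir_Ψ
  lo := lo
  hi := hi

/-- what is needed at every point -/
structure PtSys (W : X → ℝ) (vol : Measure Y) (c C : ℝ) (q : Y) where
  x : X
  ft_x : G.ft x = q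
  P : Polar vol (sphere (0 : E3) 1)
  θ : P.θ = (volume : Measure E3).toSphere
  Ψ : ∀ u s, P.Ψ u s = G.E x (s • (u : E3))
  R : ∀ y, y ≠ q → y ∈ P.R
  dir : Y → sphere (0 : E3) 1
  meas_dir : Measurable dir
  dir_Ψ : ∀ u s, 0 < s → dir (P.Ψ u s) = u
  lo : ∀ u s, 1 ≤ s → ENNReal.ofReal (c * Real.exp (aa L W (fu G x u) s)) ≤ P.j u s
  hi : ∀ u s, 1 ≤ s → P.j u s ≤ ENNReal.ofReal (C * Real.exp (aa L W (fu G x u) s))

end Sys

end Vale.Agent.P207.N3.H348
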