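import Mathlib

/-!
# P207, line N3, P2: comparison of visual measures by shells

`Polar vol Ω`: a system of polar coordinates `(v, s) ↦ Ψ v s`, `s > 0`, on a part `R` of the measure
space `(Y, vol)`; `θ` is the measure of the space of directions `Ω`, `j` the density.
-/

open MeasureTheory Filter Topology Set
open scoped ENNReal

noncomputable section

namespace Vale.Agent.P207.N3.H348

variable {Y Ω Ω₀ Ω₁ B : Type*} [MeasurableSpace Y] [MeasurableSpace Ω] [MeasurableSpace Ω₀]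
  [MeasurableSpace Ω₁]

/-- Polar coordinates on a part `R` of `(Y, vol)`. -/
structure Polar (vol : Measure Y) (Ω : Type*) [MeasurableSpace Ω] where
  θ : Measure Ω
  finite : IsFiniteMeasure θ
  Ψ : Ω → ℝ → Y
  j : Ω → ℝ → ℝ≥0∞
  meas_Ψ : Measurable fun p : Ω × ℝ => Ψ p.1 p.2
  meas_j : Measurable fun p : Ω × ℝ => j p.1 p.2
  R : Set Y
  meas_R : MeasurableSet R
  range : ∀ y ∈ R, ∃ v s, 0 < s ∧ Ψ v s = y
  ρ : Y → ℝ
  meas_ρ : Measurable ρ
  ρ_Ψ : ∀ v s, 0 < s → ρ (Ψ v s) = s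
  lint : ∀ F : Y → ℝ≥0∞, Measurable F →
    ∫⁻ y in R, F y ∂vol = ∫⁻ v, (∫⁻ s in Ioi (0 : ℝ), F (Ψ v s) * j v s) ∂θ

namespace Polar

variable {vol : Measure Y}

/-- the integral over a shell -/
theorem lint_shell (P : Polar vol Ω) {g : Y → ℝ≥0∞} (hg : Measurable g) {a b : ℝ} (ha : 0 ≤ a) :
    ∫⁻ y in P.R, (P.ρ ⁻¹' Ioc a b).indicator g y ∂vol =
      ∫⁻ v, (∫⁻ s in Ioc a b, g (P.Ψ v s) * P.j v s) ∂P.θ := by
  have hm : MeasurableSet (P.ρ ⁻¹' Ioc a b) := P.meas_ρ measurableSet_Ioc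
  rw [P.lint _ (hg.indicator hm)]
  refine lintegral_congr fun v => ?_
  rw [← lintegral_indicator measurableSet_Ioi, ← lintegral_indicator measurableSet_Ioc]
  refine lintegral_congr fun s => ?_
  by_cases h0 : 0 < s
  · rw [indicator_of_mem (show s ∈ Ioi (0 : ℝ) from h0)]
    by_cases h1 : s ∈ Ioc a b
    · rw [indicator_of_mem h1, indicator_of_mem]
      change P.ρ (P.Ψ v s) ∈ Ioc a b
      rwa [P.ρ_Ψ v s h0]
    · rw [indicator_of_notMem h1, indicator_of_notMem, zero_mul]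
      change ¬ P.ρ (P.Ψ v s) ∈ Ioc a b
      rwa [P.ρ_Ψ v s h0]
  · rw [indicator_of_notMem (show s ∉ Ioi (0 : ℝ) from h0), indicator_of_notMem]
    intro h1
    exact h0 (lt_of_le_of_lt ha h1.1)

end Polar

/-- **The shell comparison.** `P₁` is the source, `P₀` the target. -/
theorem shell_le {vol : Measure Y} (P₀ : Polar vol Ω₀) (P₁ : Polar vol Ω₁) {g : Y → ℝ≥0∞}
    (hg : Measurable g) {g₀ : Ω₀ → ℝ≥0∞} {g₁ : Ω₁ → ℝ≥0∞} (hg₀ : Measurable g₀)
    (hg₁ : Measurable g₁) {C : ℝ}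
    (h : ∀ ε : ℝ≥0∞, 0 < ε → ∃ S : ℝ, (∀ v s, S < s → P₁.Ψ v s ∈ P₀.R ∧
        |P₀.ρ (P₁.Ψ v s) - s| ≤ C ∧ g₁ v ≤ g (P₁.Ψ v s) * P₁.j v s + ε) ∧
      ∀ v s, S < s → g (P₀.Ψ v s) * P₀.j v s ≤ g₀ v + ε) :
    ∫⁻ v, g₁ v ∂P₁.θ ≤ ∫⁻ v, g₀ v ∂P₀.θ := by
  have := P₀.finite
  have := P₁.finite
  have hC : 0 ≤ |C| := abs_nonneg C
  -- the inequality at every ε
  have key : ∀ ε : ℝ≥0∞, 0 < ε → ∫⁻ v, g₁ v ∂P₁.θ ≤
      (∫⁻ v, g₀ v ∂P₀.θ + ε * P₀.θ univ) + ε * P₁.θ univ := by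
    intro ε hε
    obtain ⟨S₀, hS1, hS0⟩ := h ε hε
    set S : ℝ := max S₀ 0 + |C| with hS
    have hS₀ : S₀ ≤ S := (le_max_left _ _).trans (le_add_of_nonneg_right hC)
    have hSC : S₀ ≤ S - |C| := by rw [hS]; simp
    have hSC0 : 0 ≤ S - |C| := by rw [hS]; simp
    have hS00 : 0 ≤ S := by linarith
    have hL : ∀ L : ℝ, 0 < L → ENNReal.ofReal L * ∫⁻ v, g₁ v ∂P₁.θ ≤
        ENNReal.ofReal (L + 2 * |C|) * (∫⁻ v, g₀ v ∂P₀.θ + ε * P₀.θ univ) +
          ENNReal.ofReal L * (ε * P₁.θ univ) := by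
      intro L hL
      have e1 : ENNReal.ofReal L * ∫⁻ v, g₁ v ∂P₁.θ =
          ∫⁻ v, (∫⁻ _s in Ioc S (S + L), g₁ v) ∂P₁.θ := by
        rw [← lintegral_const_mul _ hg₁]
        refine lintegral_congr fun v => ?_
        rw [setLIntegral_const, Real.volume_Ioc, add_sub_cancel_left, mul_comm]
      have e2 : ∫⁻ v, (∫⁻ _s in Ioc S (S + L), g₁ v) ∂P₁.θ ≤
          ∫⁻ v, ((∫⁻ s in Ioc S (S + L), g (P₁.Ψ v s) * P₁.j v s) + ENNReal.ofReal L * ε)
            ∂P₁.θ := by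
        refine lintegral_mono fun v => ?_
        have e3 : ENNReal.ofReal L * ε = ∫⁻ _s in Ioc S (S + L), ε := by
          rw [setLIntegral_const, Real.volume_Ioc, add_sub_cancel_left, mul_comm]
        rw [e3, ← lintegral_add_right _ measurable_const]
        exact setLIntegral_mono' measurableSet_Ioc fun s hs => (hS1 v s (hS₀.trans_lt hs.1)).2.2
      have e4 : ∫⁻ v, ((∫⁻ s in Ioc S (S + L), g (P₁.Ψ v s) * P₁.j v s) + ENNReal.ofReal L * ε)
          ∂P₁.θ = (∫⁻ v, (∫⁻ s in Ioc S (S + L), g (P₁.Ψ v s) * P₁.j v s) ∂P₁.θ) +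
            ENNReal.ofReal L * (ε * P₁.θ univ) := by
        rw [lintegral_add_right _ measurable_const, lintegral_const, mul_assoc]
      rw [e1]
      refine (e2.trans e4.le).trans (add_le_add_left ?_ _)
      rw [← P₁.lint_shell hg hS00]
      -- move to the other system
      have e5 : ∫⁻ y in P₁.R, (P₁.ρ ⁻¹' Ioc S (S + L)).indicator g y ∂vol ≤
          ∫⁻ y in P₀.R, (P₀.ρ ⁻¹' Ioc (S - |C|) (S + L + |C|)).indicator g y ∂vol := by
        rw [← lintegral_indicator P₁.meas_R, ← lintegral_indicator P₀.meas_R]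
        refine lintegral_mono fun y => ?_
        by_cases h1 : y ∈ P₁.R
        · rw [indicator_of_mem h1]
          obtain ⟨v, s, hs, rfl⟩ := P₁.range y h1
          by_cases h2 : P₁.Ψ v s ∈ P₁.ρ ⁻¹' Ioc S (S + L)
          · rw [indicator_of_mem h2]
            have h3 : s ∈ Ioc S (S + L) := by
              have := h2
              rwa [mem_preimage, P₁.ρ_Ψ v s hs] at this
            obtain ⟨h4, h5, -⟩ := hS1 v s (hS₀.trans_lt h3.1)
            rw [indicator_of_mem h4, indicator_of_mem]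
            have h6 : |P₀.ρ (P₁.Ψ v s) - s| ≤ |C| := h5.trans (le_abs_self C)
            rw [abs_le] at h6
            exact ⟨by linarith [h3.1], by linarith [h3.2]⟩
          · rw [indicator_of_notMem h2]
            exact zero_le
        · rw [indicator_of_notMem h1]
          exact zero_le
      refine e5.trans ?_
      rw [P₀.lint_shell hg hSC0]
      have e6 : ∫⁻ v, (∫⁻ s in Ioc (S - |C|) (S + L + |C|), g (P₀.Ψ v s) * P₀.j v s) ∂P₀.θ ≤
          ∫⁻ v, (g₀ v + ε) * ENNReal.ofReal (L + 2 * |C|) ∂P₀.θ := by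
        refine lintegral_mono fun v => ?_
        have e7 : (g₀ v + ε) * ENNReal.ofReal (L + 2 * |C|) =
            ∫⁻ _s in Ioc (S - |C|) (S + L + |C|), (g₀ v + ε) := by
          rw [setLIntegral_const, Real.volume_Ioc]
          congr 2
          ring
        rw [e7]
        exact setLIntegral_mono' measurableSet_Ioc fun s hs => hS0 v s (hSC.trans_lt hs.1)
      refine e6.trans (le_of_eq ?_)
      rw [lintegral_mul_const _ (hg₀.add_const ε), lintegral_add_right _ measurable_const,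
        lintegral_const, mul_comm]
    -- divide by L
    set I₁ := ∫⁻ v, g₁ v ∂P₁.θ with hI₁
    set I₀ := ∫⁻ v, g₀ v ∂P₀.θ + ε * P₀.θ univ with hI₀
    set J := ε * P₁.θ univ with hJ
    by_cases htop : I₀ = ⊤
    · rw [htop, top_add]
      exact le_top
    have h2 : ∀ L : ℝ, 0 < L → I₁ ≤ ENNReal.ofReal (1 + 2 * |C| / L) * I₀ + J := by
      intro L hL0
      have h3 := hL L hL0
      have hLne : ENNReal.ofReal L ≠ 0 := by
        rw [Ne, ENNReal.ofReal_eq_zero, not_le]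
        exact hL0
      have h4 : ENNReal.ofReal (L + 2 * |C|) = ENNReal.ofReal L * ENNReal.ofReal (1 + 2 * |C| / L) := by
        rw [← ENNReal.ofReal_mul hL0.le]
        congr 1
        field_simp
      rw [h4, mul_assoc, ← mul_add] at h3
      exact (ENNReal.mul_le_mul_iff_right hLne ENNReal.ofReal_ne_top).1 h3
    have h5 : Tendsto (fun L : ℝ => ENNReal.ofReal (1 + 2 * |C| / L) * I₀ + J) atTop
        (𝓝 (ENNReal.ofReal (1 + 0) * I₀ + J)) := by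
      refine Tendsto.add_const _ ?_
      refine ENNReal.Tendsto.mul_const ?_ (Or.inr htop)
      refine (ENNReal.continuous_ofReal.tendsto _).comp ?_
      exact (tendsto_const_nhds.div_atTop tendsto_id).const_add 1
    have h6 : I₁ ≤ ENNReal.ofReal (1 + 0) * I₀ + J :=
      ge_of_tendsto h5 (by filter_upwards [eventually_gt_atTop 0] with L hL0 using h2 L hL0)
    simpa using h6
  -- let ε tend to zero
  have h7 : Tendsto (fun ε : ℝ≥0∞ => (∫⁻ v, g₀ v ∂P₀.θ + ε * P₀.θ univ) + ε * P₁.θ univ)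
      (𝓝[>] 0) (𝓝 ((∫⁻ v, g₀ v ∂P₀.θ + 0 * P₀.θ univ) + 0 * P₁.θ univ)) := by
    have hid : Tendsto (fun ε : ℝ≥0∞ => ε) (𝓝[>] 0) (𝓝 0) := nhdsWithin_le_nhds
    refine Tendsto.add (Tendsto.const_add _ ?_) ?_
    · exact ENNReal.Tendsto.mul_const hid (Or.inr (measure_ne_top _ _))
    · exact ENNReal.Tendsto.mul_const hid (Or.inr (measure_ne_top _ _))
  have h8 : ∫⁻ v, g₁ v ∂P₁.θ ≤ (∫⁻ v, g₀ v ∂P₀.θ + 0 * P₀.θ univ) + 0 * P₁.θ univ :=
    ge_of_tendsto h7 (by filter_upwards [self_mem_nhdsWithin] with ε hε using key ε hε)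
  simpa using h8

/-- Comparison of finite measures by bounded continuous functions. -/
theorem measure_le_of_lintegral_le {B : Type*} [TopologicalSpace B] [MeasurableSpace B]
    [BorelSpace B] [HasOuterApproxClosed B] {μ ν : Measure B} [IsFiniteMeasure μ]
    [IsFiniteMeasure ν] [μ.WeaklyRegular]
    (h : ∀ f : BoundedContinuousFunction B NNReal, ∫⁻ x, f x ∂μ ≤ ∫⁻ x, f x ∂ν) : μ ≤ ν := by
  have hF : ∀ F : Set B, IsClosed F → μ F ≤ ν F := fun F hF =>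
    le_of_tendsto_of_tendsto' (HasOuterApproxClosed.tendsto_lintegral_apprSeq hF μ)
      (HasOuterApproxClosed.tendsto_lintegral_apprSeq hF ν) fun n => h _
  refine Measure.le_intro fun A hA _ => ?_
  rw [hA.measure_eq_iSup_isClosed_of_ne_top (measure_ne_top μ A)]
  exact iSup₂_le fun F hFA => iSup_le fun hFc => (hF F hFc).trans (measure_mono hFA)

theorem finite_withDensity (θ : Measure Ω) [IsFiniteMeasure θ] (G : Ω → NNReal) {K : NNReal}
    (hG : ∀ v, G v ≤ K) : IsFiniteMeasure (θ.withDensity fun v => (G v : ℝ≥0∞)) := by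
  refine isFiniteMeasure_withDensity ?_
  refine ((lintegral_mono fun v => (ENNReal.coe_le_coe.2 (hG v))).trans_lt ?_).ne
  rw [lintegral_const]
  exact ENNReal.mul_lt_top ENNReal.coe_lt_top (measure_lt_top _ _)

/-- **The shell comparison for measures on the boundary.** `ω` is a weight on `Y`, `pr` the
projection to the boundary; the densities `ω j` of the source `P₁` are asymptotically `≥ G₁`, those
of the target `P₀` asymptotically `≤ G₀`. -/
theorem boundary_le {B : Type*} [PseudoMetricSpace B] [CompactSpace B] [MeasurableSpace B]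
    [BorelSpace B] {vol : Measure Y} (P₀ : Polar vol Ω₀) (P₁ : Polar vol Ω₁)
    {pr : Y → B} (hpr : Measurable pr) {end₀ : Ω₀ → B} (he₀ : Measurable end₀) {end₁ : Ω₁ → B}
    (he₁ : Measurable end₁) {ω : Y → ℝ≥0∞} (hω : Measurable ω) {G₀ : Ω₀ → NNReal}
    (hG₀ : Measurable G₀) {G₁ : Ω₁ → NNReal} (hG₁ : Measurable G₁) {K : NNReal}
    (hK₀ : ∀ v, G₀ v ≤ K) (hK₁ : ∀ v, G₁ v ≤ K) {C : ℝ}
    (h1 : ∃ S : ℝ, ∀ v s, S < s → P₁.Ψ v s ∈ P₀.R ∧ |P₀.ρ (P₁.Ψ v s) - s| ≤ C)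
    (hp₁ : ∀ ε > 0, ∃ S : ℝ, ∀ v s, S < s → dist (pr (P₁.Ψ v s)) (end₁ v) ≤ ε)
    (hp₀ : ∀ ε > 0, ∃ S : ℝ, ∀ v s, S < s → dist (pr (P₀.Ψ v s)) (end₀ v) ≤ ε)
    (hj₁ : ∀ ε : NNReal, 0 < ε → ∃ S : ℝ, ∀ v s, S < s →
      (G₁ v : ℝ≥0∞) ≤ ω (P₁.Ψ v s) * P₁.j v s + ε)
    (hj₀ : ∀ ε : NNReal, 0 < ε → ∃ S : ℝ, ∀ v s, S < s →
      ω (P₀.Ψ v s) * P₀.j v s ≤ (G₀ v : ℝ≥0∞) + ε) :
    (P₁.θ.withDensity fun v => (G₁ v : ℝ≥0∞)).map end₁ ≤
      (P₀.θ.withDensity fun v => (G₀ v : ℝ≥0∞)).map end₀ := by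
  have := P₀.finite
  have := P₁.finite
  have := finite_withDensity P₀.θ G₀ hK₀
  have := finite_withDensity P₁.θ G₁ hK₁
  refine measure_le_of_lintegral_le fun f => ?_
  have hfm : Measurable fun x : B => (f x : ℝ≥0∞) := f.continuous.measurable.coe_nnreal_ennreal
  rw [lintegral_map hfm he₁, lintegral_map hfm he₀,
    lintegral_withDensity_eq_lintegral_mul P₁.θ hG₁.coe_nnreal_ennreal
      (show Measurable fun v => (f (end₁ v) : ℝ≥0∞) from hfm.comp he₁),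
    lintegral_withDensity_eq_lintegral_mul P₀.θ hG₀.coe_nnreal_ennreal
      (show Measurable fun v => (f (end₀ v) : ℝ≥0∞) from hfm.comp he₀)]
  simp only [Pi.mul_apply]
  -- bounds of `f`
  obtain ⟨N, hN⟩ : ∃ N : NNReal, ∀ x, f x ≤ N := by
    obtain ⟨N, hN⟩ := (isCompact_range f.continuous).bddAbove
    exact ⟨N, fun x => hN (mem_range_self x)⟩
  have huc : UniformContinuous f := CompactSpace.uniformContinuous_of_continuous f.continuous
  refine shell_le (vol := vol) (g := fun y => (f (pr y) : ℝ≥0∞) * ω y)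
    (g₀ := fun v => (G₀ v : ℝ≥0∞) * (f (end₀ v) : ℝ≥0∞))
    (g₁ := fun v => (G₁ v : ℝ≥0∞) * (f (end₁ v) : ℝ≥0∞)) P₀ P₁
    ((hfm.comp hpr).mul hω) (hG₀.coe_nnreal_ennreal.mul (hfm.comp he₀))
    (hG₁.coe_nnreal_ennreal.mul (hfm.comp he₁)) (C := C) ?_
  intro ε hε
  -- choose δ with δ (N + K + 1) ≤ ε
  obtain ⟨δ, hδ0, hδ1, hδ⟩ : ∃ δ : NNReal, 0 < δ ∧ δ ≤ 1 ∧ ((δ * (N + K + 1) : NNReal) : ℝ≥0∞) ≤ ε := by
    by_cases ht : ε = ⊤
    · exact ⟨1, one_pos, le_rfl, by rw [ht]; exact le_top⟩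
    · lift ε to NNReal using ht
      have hε' : (0 : NNReal) < ε := by exact_mod_cast hε
      have hpos : (0 : NNReal) < N + K + 1 := by positivity
      refine ⟨min 1 (ε / (N + K + 1)), lt_min one_pos (div_pos hε' hpos), min_le_left _ _, ?_⟩
      rw [ENNReal.coe_le_coe]
      calc min 1 (ε / (N + K + 1)) * (N + K + 1) ≤ ε / (N + K + 1) * (N + K + 1) := by
            gcongr
            exact min_le_right _ _
        _ = ε := div_mul_cancel₀ _ hpos.ne'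
  obtain ⟨η, hη0, hη⟩ := Metric.uniformContinuous_iff.1 huc δ hδ0
  have hclose : ∀ x y : B, dist x y ≤ η / 2 → f x ≤ f y + δ := by
    intro x y hxy
    have h2 := hη (lt_of_le_of_lt hxy (by linarith) : dist x y < η)
    rw [NNReal.dist_eq] at h2
    have h3 : (f x : ℝ) - f y ≤ δ := (le_abs_self _).trans h2.le
    exact_mod_cast (by linarith : (f x : ℝ) ≤ f y + δ)
  obtain ⟨S₁, hS₁⟩ := h1
  obtain ⟨S₂, hS₂⟩ := hp₁ (η / 2) (by positivity)
  obtain ⟨S₃, hS₃⟩ := hp₀ (η / 2) (by positivity)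
  obtain ⟨S₄, hS₄⟩ := hj₁ δ hδ0
  obtain ⟨S₅, hS₅⟩ := hj₀ δ hδ0
  refine ⟨max (max S₁ S₂) (max S₃ (max S₄ S₅)), ?_, ?_⟩
  · intro v s hs
    simp only [max_lt_iff] at hs
    obtain ⟨⟨a1, a2⟩, a3, a4, a5⟩ := hs
    refine ⟨(hS₁ v s a1).1, (hS₁ v s a1).2, ?_⟩
    have e1 : (f (end₁ v) : ℝ≥0∞) ≤ (f (pr (P₁.Ψ v s)) : ℝ≥0∞) + δ := by
      have := hclose (end₁ v) (pr (P₁.Ψ v s)) (by rw [dist_comm]; exact hS₂ v s a2)
      exact_mod_cast this
    have e2 := hS₄ v s a4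
    have e3 : (f (pr (P₁.Ψ v s)) : ℝ≥0∞) ≤ N := by exact_mod_cast hN _
    have e4 : (G₁ v : ℝ≥0∞) ≤ K := by exact_mod_cast hK₁ v
    calc (G₁ v : ℝ≥0∞) * (f (end₁ v) : ℝ≥0∞)
        ≤ G₁ v * ((f (pr (P₁.Ψ v s)) : ℝ≥0∞) + δ) := by gcongr
      _ = G₁ v * (f (pr (P₁.Ψ v s)) : ℝ≥0∞) + G₁ v * δ := mul_add _ _ _
      _ ≤ (ω (P₁.Ψ v s) * P₁.j v s + δ) * (f (pr (P₁.Ψ v s)) : ℝ≥0∞) + K * δ := by gcongr
      _ = f (pr (P₁.Ψ v s)) * ω (P₁.Ψ v s) * P₁.j v s +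
          (δ * (f (pr (P₁.Ψ v s)) : ℝ≥0∞) + K * δ) := by ring
      _ ≤ f (pr (P₁.Ψ v s)) * ω (P₁.Ψ v s) * P₁.j v s + (δ * N + K * δ) := by gcongr
      _ ≤ f (pr (P₁.Ψ v s)) * ω (P₁.Ψ v s) * P₁.j v s + ε := by
          gcongr
          refine le_trans ?_ hδ
          push_cast
          have : (δ : ℝ≥0∞) * (N + K + 1) = δ * N + K * δ + δ := by ring
          rw [this]
          exact le_self_add
  · intro v s hs
    simp only [max_lt_iff] at hs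
    obtain ⟨⟨a1, a2⟩, a3, a4, a5⟩ := hs
    have e1 : (f (pr (P₀.Ψ v s)) : ℝ≥0∞) ≤ (f (end₀ v) : ℝ≥0∞) + δ := by
      have := hclose (pr (P₀.Ψ v s)) (end₀ v) (hS₃ v s a3)
      exact_mod_cast this
    have e2 := hS₅ v s a5
    have e3 : (f (end₀ v) : ℝ≥0∞) ≤ N := by exact_mod_cast hN _
    have e4 : (G₀ v : ℝ≥0∞) ≤ K := by exact_mod_cast hK₀ v
    have hδ1' : (δ : ℝ≥0∞) ≤ 1 := by exact_mod_cast hδ1
    calc (f (pr (P₀.Ψ v s)) : ℝ≥0∞) * ω (P₀.Ψ v s) * P₀.j v s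
        = f (pr (P₀.Ψ v s)) * (ω (P₀.Ψ v s) * P₀.j v s) := by ring
      _ ≤ ((f (end₀ v) : ℝ≥0∞) + δ) * (G₀ v + δ) := by gcongr
      _ = G₀ v * (f (end₀ v) : ℝ≥0∞) + (f (end₀ v) * δ + δ * G₀ v + δ * δ) := by ring
      _ ≤ G₀ v * (f (end₀ v) : ℝ≥0∞) + (N * δ + δ * K + δ * 1) := by gcongr
      _ ≤ G₀ v * (f (end₀ v) : ℝ≥0∞) + ε := by
          gcongr
          refine le_trans (le_of_eq ?_) hδ
          push_cast
          ring

end Vale.Agent.P207.N3.H348
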